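import Vale.Agent.Lib.P328.RC.Defs

/-!
# P328, RC route: the transition matrix of the `2 × 2` heat-bath chain
-/

namespace P328RC

open P335 Finset

variable {ι κ : Type*} [Fintype ι] [Fintype κ] [LinearOrder ι] [LinearOrder κ]

open Classical in
/-- transition matrix of the `2 × 2` heat-bath chain: choose a pair of rows and a pair of columns
uniformly at random and replace the table by a uniformly random table which agrees with it outside
the chosen block -/
noncomputable def hbMat (r : ι → ℕ) (c : κ → ℕ) : Matrix (Tab r c) (Tab r c) ℝ := fun X Y =>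
  (∑ b ∈ pr ι, ∑ b' ∈ pr κ, (if RX b b' X Y then 1 / ((cls (RX b b') X).card : ℝ) else 0))
    / (((pr ι).card : ℝ) * ((pr κ).card : ℝ))

variable {r : ι → ℕ} {c : κ → ℕ}

theorem hbMat_apply (f : Tab r c → ℝ) (X : Tab r c) :
    ∑ Y, hbMat r c X Y * f Y
      = (∑ b ∈ pr ι, ∑ b' ∈ pr κ, avg (RX b b') f X) / (((pr ι).card : ℝ) * ((pr κ).card : ℝ)) := by
  classical
  have key : ∀ (b : ι × ι) (b' : κ × κ),
      ∑ Y, (if RX b b' X Y then 1 / ((cls (RX b b') X).card : ℝ) else 0) * f Y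
        = avg (RX b b') f X := by
    intro b b'
    unfold avg
    rw [Finset.sum_div]
    have h1 : ∑ Y ∈ cls (RX b b') X, f Y / ((cls (RX b b') X).card : ℝ)
        = ∑ Y, if RX b b' X Y then f Y / ((cls (RX b b') X).card : ℝ) else 0 := by
      rw [← Finset.sum_filter]
      refine Finset.sum_congr ?_ fun _ _ => rfl
      ext Y
      rw [mem_cls]
      simp
    rw [h1]
    refine Finset.sum_congr rfl fun Y _ => ?_
    split_ifs <;> ring
  unfold hbMat
  simp only [div_mul_eq_mul_div]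
  rw [← Finset.sum_div]
  congr 1
  simp only [Finset.sum_mul]
  rw [Finset.sum_comm]
  refine Finset.sum_congr rfl fun b _ => ?_
  rw [Finset.sum_comm]
  refine Finset.sum_congr rfl fun b' _ => ?_
  exact key b b'

theorem hbMat_symm (X Y : Tab r c) : hbMat r c X Y = hbMat r c Y X := by
  classical
  unfold hbMat
  congr 1
  refine Finset.sum_congr rfl fun b _ => ?_
  refine Finset.sum_congr rfl fun b' _ => ?_
  by_cases h : RX b b' X Y
  · have h' : RX b b' Y X := (RX_equiv b b').symm h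
    rw [if_pos h, if_pos h', cls_eq_of_rel (RX_equiv b b') h]
  · have h' : ¬ RX b b' Y X := fun hh => h ((RX_equiv b b').symm hh)
    rw [if_neg h, if_neg h']

theorem hbMat_row (hι : (pr ι).Nonempty) (hκ : (pr κ).Nonempty) (X : Tab r c) :
    ∑ Y, hbMat r c X Y = 1 := by
  have h1 := hbMat_apply (r := r) (c := c) (fun _ => (1 : ℝ)) X
  simp only [mul_one] at h1
  rw [h1]
  have h2 : ∀ (b : ι × ι) (b' : κ × κ), avg (RX b b') (fun _ : Tab r c => (1 : ℝ)) X = 1 := by
    intro b b'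
    unfold avg
    have hc : ((cls (RX b b') X).card : ℝ) ≠ 0 := by
      have := Finset.card_pos.2 (cls_nonempty (RX_equiv b b') X)
      positivity
    rw [Finset.sum_const, nsmul_eq_mul, mul_one, div_self hc]
  simp only [h2, Finset.sum_const, nsmul_eq_mul, mul_one]
  have a1 : ((pr ι).card : ℝ) ≠ 0 := by
    have := Finset.card_pos.2 hι
    positivity
  have a2 : ((pr κ).card : ℝ) ≠ 0 := by
    have := Finset.card_pos.2 hκ
    positivity
  exact div_self (mul_ne_zero a1 a2)

/-- `|P f|^2 ≤ |f|^2 - (1/M0) ∑ |q f|^2` (Jensen, and `|E f|^2 = |f|^2 - |f - E f|^2`) -/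
theorem hbMat_sq_le (hι : (pr ι).Nonempty) (hκ : (pr κ).Nonempty) (f : Tab r c → ℝ) :
    ∑ X, (∑ Y, hbMat r c X Y * f Y) ^ 2
      ≤ dot f f - (∑ b ∈ pr ι, ∑ b' ∈ pr κ, dot (f - avg (RX b b') f) (f - avg (RX b b') f))
          / (((pr ι).card : ℝ) * ((pr κ).card : ℝ)) := by
  have a1 : (0 : ℝ) < ((pr ι).card : ℝ) := by
    have := Finset.card_pos.2 hι
    positivity
  have a2 : (0 : ℝ) < ((pr κ).card : ℝ) := by
    have := Finset.card_pos.2 hκ
    positivity
  obtain ⟨M, hM⟩ : ∃ M : ℝ, M = ((pr ι).card : ℝ) * ((pr κ).card : ℝ) := ⟨_, rfl⟩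
  have hMpos : 0 < M := by rw [hM]; exact mul_pos a1 a2
  rw [← hM]
  -- pointwise Jensen
  have jen : ∀ X : Tab r c, (∑ Y, hbMat r c X Y * f Y) ^ 2
      ≤ (∑ b ∈ pr ι, ∑ b' ∈ pr κ, (avg (RX b b') f X) ^ 2) / M := by
    intro X
    rw [hbMat_apply, ← hM, div_pow, le_div_iff₀ hMpos]
    have h := sq_sum_le_card_mul_sum_sq (s := pr ι ×ˢ pr κ)
      (f := fun p : (ι × ι) × (κ × κ) => avg (RX p.1 p.2) f X)
    rw [Finset.card_product, Finset.sum_product, Finset.sum_product] at h
    push_cast at h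
    rw [← hM] at h
    have h3 : (∑ b ∈ pr ι, ∑ b' ∈ pr κ, avg (RX b b') f X) ^ 2 / M ^ 2 * M
        = (∑ b ∈ pr ι, ∑ b' ∈ pr κ, avg (RX b b') f X) ^ 2 / M := by
      field_simp
    rw [h3, div_le_iff₀ hMpos]
    linarith
  have e1 : ∀ (b : ι × ι) (b' : κ × κ), ∑ X, (avg (RX b b') f X) ^ 2
      = dot f f - dot (f - avg (RX b b') f) (f - avg (RX b b') f) := by
    intro b b'
    have h1 := dot_avg_avg (RX_equiv (r := r) (c := c) b b') f
    have h2 := dot_Q_Q (RX_equiv (r := r) (c := c) b b') f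
    have h4 := dot_sub_right f f (avg (RX b b') f)
    have h3 : ∑ X, (avg (RX b b') f X) ^ 2 = dot (avg (RX b b') f) (avg (RX b b') f) := by
      unfold dot
      exact Finset.sum_congr rfl fun X _ => sq _
    rw [h3]
    linarith
  calc ∑ X, (∑ Y, hbMat r c X Y * f Y) ^ 2
      ≤ ∑ X, (∑ b ∈ pr ι, ∑ b' ∈ pr κ, (avg (RX b b') f X) ^ 2) / M :=
        Finset.sum_le_sum fun X _ => jen X
    _ = (∑ b ∈ pr ι, ∑ b' ∈ pr κ, ∑ X, (avg (RX b b') f X) ^ 2) / M := by
        rw [← Finset.sum_div]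
        congr 1
        rw [Finset.sum_comm]
        refine Finset.sum_congr rfl fun b _ => ?_
        rw [Finset.sum_comm]
    _ = (∑ b ∈ pr ι, ∑ b' ∈ pr κ,
          (dot f f - dot (f - avg (RX b b') f) (f - avg (RX b b') f))) / M := by
        simp only [e1]
    _ = dot f f - (∑ b ∈ pr ι, ∑ b' ∈ pr κ,
          dot (f - avg (RX b b') f) (f - avg (RX b b') f)) / M := by
        simp only [Finset.sum_sub_distrib, Finset.sum_const, nsmul_eq_mul]
        rw [sub_div, ← mul_assoc, ← hM, mul_div_cancel_left₀ _ hMpos.ne']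

end P328RC
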