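import Vale.Agent.Lib.P328.RC.Defs

/-!
# P328, RC route: the number of tables
-/

namespace P328RC

open P335 Finset

variable {ι κ : Type*} [Fintype ι] [Fintype κ]
variable {r : ι → ℕ} {c : κ → ℕ}

theorem card_tab_le :
    Fintype.card (Tab r c)
      ≤ 2 ^ (Fintype.card ι * Fintype.card κ * (Nat.log 2 (∑ i, r i) + 1)) := by
  classical
  have h1 : Fintype.card (Tab r c) ≤ Fintype.card ((i : ι) → κ → Fin (r i + 1)) :=
    Fintype.card_le_of_injective Tab.enc Tab.enc_injective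
  have h2 : Fintype.card ((i : ι) → κ → Fin (r i + 1))
      = ∏ i, (r i + 1) ^ Fintype.card κ := by
    rw [Fintype.card_pi]
    apply Finset.prod_congr rfl
    intro i _
    rw [Fintype.card_fun, Fintype.card_fin]
  have h3 : ∀ i, r i + 1 ≤ 2 ^ (Nat.log 2 (∑ i, r i) + 1) := by
    intro i
    have ha : r i ≤ ∑ i, r i :=
      Finset.single_le_sum (f := fun i => r i) (fun _ _ => Nat.zero_le _) (mem_univ i)
    have hb : (∑ i, r i) < 2 ^ (Nat.log 2 (∑ i, r i) + 1) :=
      Nat.lt_pow_succ_log_self (by norm_num) _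
    omega
  have h4 : ∏ i, (r i + 1) ^ Fintype.card κ
      ≤ ∏ _i : ι, (2 ^ (Nat.log 2 (∑ i, r i) + 1)) ^ Fintype.card κ := by
    apply Finset.prod_le_prod'
    intro i _
    exact Nat.pow_le_pow_left (h3 i) _
  have h5 : ∏ _i : ι, (2 ^ (Nat.log 2 (∑ i, r i) + 1)) ^ Fintype.card κ
      = 2 ^ (Fintype.card ι * Fintype.card κ * (Nat.log 2 (∑ i, r i) + 1)) := by
    rw [Finset.prod_const, Finset.card_univ, ← pow_mul, ← pow_mul]
    congr 1
    ring
  calc Fintype.card (Tab r c) ≤ Fintype.card ((i : ι) → κ → Fin (r i + 1)) := h1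
    _ = ∏ i, (r i + 1) ^ Fintype.card κ := h2
    _ ≤ _ := h4
    _ = _ := h5

end P328RC
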