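import Mathlib
import Vale.Agent.Lib.P335.Markov

/-!
# P328, RC route: from an L2 contraction to a total variation bound
-/

namespace P328RC

open Finset

/-- Let `P` be a symmetric stochastic matrix which contracts the square norm of mean zero functions
by `1 - 1/M`.  If the state space has at most `2^k` points then after `t ≥ M (k + 2 j)` steps the
chain is within total variation `2^{-(j+1)}` of uniform, from every start. -/
theorem tv_bound_eps {Ω : Type*} [Fintype Ω] [DecidableEq Ω] [Nonempty Ω] (P : Matrix Ω Ω ℝ)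
    (hsymm : ∀ x y, P x y = P y x) (hrow : ∀ x, ∑ y, P x y = 1) (M : ℕ) (hM : 0 < M)
    (hcontr : ∀ f : Ω → ℝ, ∑ x, f x = 0 →
      ∑ x, (∑ y, P x y * f y) ^ 2 ≤ (1 - 1 / (M : ℝ)) * ∑ x, f x ^ 2)
    (k j : ℕ) (hN : Fintype.card Ω ≤ 2 ^ k) (t : ℕ) (ht : M * (k + 2 * j) ≤ t) (x : Ω) :
    (1 / 2) * ∑ y, |(P ^ t) x y - 1 / (Fintype.card Ω : ℝ)| ≤ (1 / 2) ^ (j + 1) := by
  obtain ⟨N, hNdef⟩ : ∃ N : ℕ, N = Fintype.card Ω := ⟨_, rfl⟩
  have hNpos : 0 < N := by rw [hNdef]; exact Fintype.card_pos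
  have hNR : (0 : ℝ) < N := by exact_mod_cast hNpos
  rw [← hNdef] at hN ⊢
  obtain ⟨u, hu⟩ : ∃ u : ℕ → Ω → ℝ, ∀ t y, u t y = (P ^ t) x y - 1 / (N : ℝ) :=
    ⟨_, fun _ _ => rfl⟩
  have hM1 : (1 : ℝ) ≤ M := by exact_mod_cast hM
  have hMR : (0 : ℝ) < M := by linarith
  have hc0 : 0 ≤ 1 - 1 / (M : ℝ) := by
    rw [sub_nonneg, div_le_one hMR]; exact hM1
  have hc1 : 1 - 1 / (M : ℝ) ≤ 1 := by
    have : 0 < 1 / (M : ℝ) := by positivity
    linarith
  have hcard : ∑ _y : Ω, (1 / (N : ℝ)) = 1 := by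
    rw [sum_const, card_univ, ← hNdef, nsmul_eq_mul]
    field_simp
  -- recursion
  have hrec : ∀ t y, u (t + 1) y = ∑ z, P y z * u t z := by
    intro t y
    rw [hu, pow_succ, Matrix.mul_apply]
    have : ∑ z, P y z * u t z = ∑ z, (P ^ t) x z * P z y - 1 / (N : ℝ) := by
      have h1 : ∀ z, P y z * u t z = (P ^ t) x z * P z y - P y z * (1 / (N : ℝ)) := by
        intro z
        rw [hu, hsymm z y]; ring
      simp only [h1]
      rw [sum_sub_distrib, ← sum_mul, hrow, one_mul]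
    rw [this]
  -- mean zero
  have hmean : ∀ t, ∑ y, u t y = 0 := by
    intro t
    induction t with
    | zero =>
      simp only [hu, pow_zero, Matrix.one_apply]
      rw [sum_sub_distrib, hcard]
      simp
    | succ t ih =>
      simp only [hrec]
      rw [sum_comm]
      have : ∀ z, ∑ y, P y z * u t z = u t z := by
        intro z
        rw [← sum_mul]
        have : ∑ y, P y z = 1 := by
          rw [← hrow z]
          exact sum_congr rfl fun y _ => hsymm y z
        rw [this, one_mul]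
      simp only [this]
      exact ih
  -- norm decay
  have hdecay : ∀ t, ∑ y, u t y ^ 2 ≤ (1 - 1 / (M : ℝ)) ^ t := by
    intro t
    induction t with
    | zero =>
      have h0 : ∀ y, u 0 y ^ 2 = (if x = y then (1 : ℝ) else 0) * (1 - 2 / N)
          + (1 / (N : ℝ)) * (1 / N) := by
        intro y
        rw [hu, pow_zero, Matrix.one_apply]
        by_cases h : x = y
        · simp only [h, if_true]; ring
        · simp only [h, if_false]; ring
      simp only [h0]
      rw [sum_add_distrib, ← sum_mul, ← sum_mul, hcard]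
      simp only [sum_ite_eq, mem_univ, if_true, pow_zero]
      have : 0 < 1 / (N : ℝ) := by positivity
      have e : (2 : ℝ) / N = 2 * (1 / N) := by ring
      rw [e]
      linarith
    | succ t ih =>
      have h2 := hcontr (u t) (hmean t)
      have h3 : ∑ y, u (t + 1) y ^ 2 = ∑ y, (∑ z, P y z * u t z) ^ 2 :=
        sum_congr rfl fun y _ => by rw [hrec]
      rw [h3, pow_succ]
      calc ∑ y, (∑ z, P y z * u t z) ^ 2
          ≤ (1 - 1 / (M : ℝ)) * ∑ y, u t y ^ 2 := h2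
        _ = (∑ y, u t y ^ 2) * (1 - 1 / (M : ℝ)) := by ring
        _ ≤ (1 - 1 / (M : ℝ)) ^ t * (1 - 1 / (M : ℝ)) := by gcongr
  -- conclusion
  have hfin : ∑ y, u t y ^ 2 ≤ (1 / 2) ^ (k + 2 * j) := by
    refine (hdecay _).trans ?_
    refine (pow_le_pow_of_le_one hc0 hc1 ht).trans ?_
    rw [pow_mul]
    exact pow_le_pow_left₀ (pow_nonneg hc0 _) (P335.half_pow M hM) _
  have hCS : (∑ y, |u t y|) ^ 2 ≤ (N : ℝ) * ∑ y, |u t y| ^ 2 := by
    have := sq_sum_le_card_mul_sum_sq (s := (univ : Finset Ω)) (f := fun y => |u t y|)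
    rw [card_univ, ← hNdef] at this
    exact this
  simp only [sq_abs] at hCS
  have hN2 : (N : ℝ) ≤ 2 ^ k := by exact_mod_cast hN
  have hS0 : 0 ≤ ∑ y, u t y ^ 2 := sum_nonneg fun _ _ => sq_nonneg _
  have hsq : (∑ y, |u t y|) ^ 2 ≤ ((1 / 2) ^ j) ^ 2 := by
    calc (∑ y, |u t y|) ^ 2 ≤ (N : ℝ) * ∑ y, u t y ^ 2 := hCS
      _ ≤ 2 ^ k * (1 / 2) ^ (k + 2 * j) := by gcongr
      _ = ((1 / 2) ^ j) ^ 2 := by
        rw [pow_add, ← mul_assoc, ← mul_pow, ← pow_mul, mul_comm j 2]; norm_num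
  have hle : ∑ y, |u t y| ≤ (1 / 2) ^ j :=
    abs_le_of_sq_le_sq' hsq (by positivity) |>.2
  simp only [hu] at hle
  rw [pow_succ]
  linarith

end P328RC
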