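import Vale.Agent.Lib.P328.RC.Glue
import Vale.Agent.Lib.P328.RC.Card
import Vale.Agent.Lib.P328.RC.Mixing
import Vale.Agent.Lib.P328.RC.HbMat

/-!
# P328, RC route: the `2 × 2` heat-bath chain mixes rapidly, given the two-row inequality (JS)
-/

namespace P328RC

open P335 Finset

variable {ι κ : Type*} [Fintype ι] [Fintype κ] [LinearOrder ι] [LinearOrder κ]
variable {r : ι → ℕ} {c : κ → ℕ}

/-- one step of the heat-bath chain contracts the square norm of mean zero functions -/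
theorem hbMat_contr {cst : ℝ} (hc : 0 < cst) (hJι : JS ι cst) (hJκ : JS κ cst)
    (hι : (pr ι).Nonempty) (hκ : (pr κ).Nonempty) (M : ℕ)
    (hM : 2 * (((pr ι).card : ℝ) * ((pr κ).card : ℝ)) ≤ cst ^ 2 * M)
    (f : Tab r c → ℝ) (hf : ∑ X, f X = 0) :
    ∑ X, (∑ Y, hbMat r c X Y * f Y) ^ 2 ≤ (1 - 1 / (M : ℝ)) * ∑ X, f X ^ 2 := by
  obtain ⟨M0, hM0⟩ : ∃ M0 : ℝ, M0 = ((pr ι).card : ℝ) * ((pr κ).card : ℝ) := ⟨_, rfl⟩
  have hM0pos : 0 < M0 := by
    rw [hM0]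
    have h1 : (0 : ℝ) < (pr ι).card := by exact_mod_cast hι.card_pos
    have h2 : (0 : ℝ) < (pr κ).card := by exact_mod_cast hκ.card_pos
    positivity
  rw [← hM0] at hM
  have hMpos : (0 : ℝ) < M := by
    by_contra hcon
    push Not at hcon
    have : cst ^ 2 * (M : ℝ) ≤ 0 := mul_nonpos_of_nonneg_of_nonpos (sq_nonneg _) hcon
    linarith
  have h1 := hbMat_sq_le hι hκ f
  have h2 := poincare hc hJι hJκ f hf
  rw [← hM0] at h1
  obtain ⟨S, hS⟩ : ∃ S : ℝ, S = ∑ b ∈ pr ι, ∑ b' ∈ pr κ,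
      dot (f - avg (RX b b') f) (f - avg (RX b b') f) := ⟨_, rfl⟩
  rw [← hS] at h1 h2
  have hD : ∑ X, f X ^ 2 = dot f f := by
    unfold dot
    exact Finset.sum_congr rfl fun X _ => sq (f X)
  rw [hD]
  have hD0 : 0 ≤ dot f f := dot_self_nonneg f
  have h3 : dot f f / M ≤ S / M0 := by
    rw [div_le_div_iff₀ hMpos hM0pos]
    have e1 : dot f f * (2 * M0) ≤ dot f f * (cst ^ 2 * M) := mul_le_mul_of_nonneg_left hM hD0
    have e2 : cst ^ 2 * dot f f * M ≤ 2 * S * M := mul_le_mul_of_nonneg_right h2 hMpos.le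
    nlinarith
  calc ∑ X, (∑ Y, hbMat r c X Y * f Y) ^ 2 ≤ dot f f - S / M0 := h1
    _ ≤ dot f f - dot f f / M := by linarith
    _ = (1 - 1 / (M : ℝ)) * dot f f := by ring

open Classical in
/-- rapid mixing of the heat-bath chain from (JS) -/
theorem mixing_of_JS {cst : ℝ} (hc : 0 < cst) (hJι : JS ι cst) (hJκ : JS κ cst)
    (hι : (pr ι).Nonempty) (hκ : (pr κ).Nonempty) (M : ℕ)
    (hM : 2 * (((pr ι).card : ℝ) * ((pr κ).card : ℝ)) ≤ cst ^ 2 * M)
    (j t : ℕ)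
    (ht : M * (Fintype.card ι * Fintype.card κ * (Nat.log 2 (∑ i, r i) + 1) + 2 * j) ≤ t)
    (X : Tab r c) :
    (1 / 2) * ∑ Y, |(hbMat r c ^ t) X Y - 1 / (Fintype.card (Tab r c) : ℝ)| ≤ (1 / 2) ^ (j + 1) := by
  have : Nonempty (Tab r c) := ⟨X⟩
  have hMpos : 0 < M := by
    rcases Nat.eq_zero_or_pos M with h0 | h0
    · exfalso
      rw [h0] at hM
      have h1 : (0 : ℝ) < (pr ι).card := by exact_mod_cast hι.card_pos
      have h2 : (0 : ℝ) < (pr κ).card := by exact_mod_cast hκ.card_pos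
      have : (0 : ℝ) < 2 * (((pr ι).card : ℝ) * ((pr κ).card : ℝ)) := by positivity
      simp at hM
      linarith
    · exact h0
  exact tv_bound_eps (hbMat r c) hbMat_symm (hbMat_row hι hκ) M hMpos
    (hbMat_contr hc hJι hJκ hι hκ M hM) _ j card_tab_le t ht X

end P328RC
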