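import Vale.Agent.Lib.P335.Avg
import Vale.Agent.Lib.P335.Fibre

/-!
# P328, RC route: the abstract lemma (GL) and the abstract conditional independence lemma
-/

namespace P328RC

open P335 Finset

variable {Ω : Type*} [Fintype Ω]

/-- (GL), helper39's form of (I*).  `r12` refines `r1` and `r2`, and `r1`, `r2` are conditionally
independent given `rL`. -/
theorem gl_ineq {r1 r2 r12 rL : Ω → Ω → Prop} (h1 : Equivalence r1) (h2 : Equivalence r2)
    (h12 : Equivalence r12) (hL : Equivalence rL)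
    (le1 : ∀ x y, r12 x y → r1 x y) (le2 : ∀ x y, r12 x y → r2 x y)
    (hCI : ∀ u v : Ω → ℝ, dot (avg r1 u) (avg r2 v)
      = dot (avg rL (avg r1 u)) (avg rL (avg r2 v)))
    (f : Ω → ℝ) :
    2 * dot (f - avg r12 f) (f - avg r12 f)
      - (2 * dot (f - avg r1 f) (avg r12 (avg rL (avg r2 f)))
          - dot (avg rL (avg r2 f) - avg r12 (avg rL (avg r2 f)))
              (avg rL (avg r2 f) - avg r12 (avg rL (avg r2 f))))
      - (2 * dot (f - avg r2 f) (avg r12 (avg rL (avg r1 f)))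
          - dot (avg rL (avg r1 f) - avg r12 (avg rL (avg r1 f)))
              (avg rL (avg r1 f) - avg r12 (avg rL (avg r1 f))))
      ≤ 2 * dot (f - avg r2 f) (f - avg r1 f) := by
  obtain ⟨g, hg⟩ : ∃ g, g = avg r12 f := ⟨_, rfl⟩
  obtain ⟨al, hal⟩ : ∃ al, al = avg r1 f := ⟨_, rfl⟩
  obtain ⟨be, hbe⟩ : ∃ be, be = avg r2 f := ⟨_, rfl⟩
  obtain ⟨za, hza⟩ : ∃ za, za = avg rL al := ⟨_, rfl⟩
  obtain ⟨zb, hzb⟩ : ∃ zb, zb = avg rL be := ⟨_, rfl⟩
  obtain ⟨Za, hZa⟩ : ∃ Za, Za = avg r12 za := ⟨_, rfl⟩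
  obtain ⟨Zb, hZb⟩ : ∃ Zb, Zb = avg r12 zb := ⟨_, rfl⟩
  rw [← hg, ← hal, ← hbe, ← hza, ← hzb, ← hZa, ← hZb]
  have e12al : avg r12 al = al := by rw [hal]; exact avg_avg_of_ge h12 h1 le1 f
  have e12be : avg r12 be = be := by rw [hbe]; exact avg_avg_of_ge h12 h2 le2 f
  -- relations
  have r_fg : dot f g = dot g g := by rw [hg, dot_avg_avg h12]
  have r_fal : dot f al = dot al al := by rw [hal, dot_avg_avg h1]
  have r_fbe : dot f be = dot be be := by rw [hbe, dot_avg_avg h2]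
  have r_gal : dot g al = dot al al := by rw [hg, avg_symm h12, e12al, r_fal]
  have r_gbe : dot g be = dot be be := by rw [hg, avg_symm h12, e12be, r_fbe]
  have r_albe : dot al be = dot za zb := by rw [hal, hbe, hCI, hza, hzb, hal, hbe]
  have r_alza : dot al za = dot za za := by rw [hza, dot_avg_avg hL]
  have r_bezb : dot be zb = dot zb zb := by rw [hzb, dot_avg_avg hL]
  have r_alzb : dot al zb = dot za zb := by
    rw [hza, avg_symm hL, hzb, avg_idem hL]
  have r_beza : dot be za = dot za zb := by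
    rw [dot_comm za zb, hzb, avg_symm hL, hza, avg_idem hL]
  have r_alZb : dot al Zb = dot za zb := by
    rw [hZb, ← avg_symm h12, e12al, r_alzb]
  have r_beZb : dot be Zb = dot zb zb := by
    rw [hZb, ← avg_symm h12, e12be, r_bezb]
  have r_alZa : dot al Za = dot za za := by
    rw [hZa, ← avg_symm h12, e12al, r_alza]
  have r_beZa : dot be Za = dot za zb := by
    rw [hZa, ← avg_symm h12, e12be, r_beza]
  have r_gZb : dot g Zb = dot f Zb := by
    rw [hg, avg_symm h12, hZb, avg_idem h12]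
  have r_gZa : dot g Za = dot f Za := by
    rw [hg, avg_symm h12, hZa, avg_idem h12]
  have r_zbZb : dot zb Zb = dot Zb Zb := by rw [hZb, dot_avg_avg h12]
  have r_zaZa : dot za Za = dot Za Za := by rw [hZa, dot_avg_avg h12]
  have p1 := dot_self_nonneg (za - zb)
  have p2 := dot_self_nonneg (g - al - be + Zb)
  have p3 := dot_self_nonneg (g - be - al + Za)
  simp only [dot_sub_left, dot_sub_right, dot_add_left, dot_add_right] at p1 p2 p3 ⊢
  have c1 := dot_comm g f
  have c2 := dot_comm al f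
  have c3 := dot_comm be f
  have c4 := dot_comm al g
  have c5 := dot_comm be g
  have c6 := dot_comm be al
  have c7 := dot_comm zb za
  have c8 := dot_comm Zb g
  have c9 := dot_comm Za g
  have c10 := dot_comm Zb al
  have c11 := dot_comm Zb be
  have c12 := dot_comm Za al
  have c13 := dot_comm Za be
  have c14 := dot_comm Zb zb
  have c15 := dot_comm Za za
  linarith

/-- product structure of the classes of `rL` gives conditional independence of `r1` and `r2`
given `rL`: class version -/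
theorem ci_class {r1 r2 rL : Ω → Ω → Prop} (h1 : Equivalence r1) (h2 : Equivalence r2)
    (hL : Equivalence rL) (z : Ω → Ω → Ω)
    (hzL : ∀ x y, rL x y → rL x (z x y))
    (hz1 : ∀ x y, rL x y → r1 x (z x y))
    (hz2 : ∀ x y, rL x y → r2 y (z x y))
    (huniq : ∀ a b, rL a b → r1 a b → r2 a b → a = b)
    (U V : Ω → ℝ) (hU : Inv r1 U) (hV : Inv r2 V) (x0 : Ω) :
    (∑ x ∈ cls rL x0, U x) * (∑ y ∈ cls rL x0, V y)
      = ((cls rL x0).card : ℝ) * ∑ x ∈ cls rL x0, U x * V x := by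
  classical
  have hrel : ∀ x y, x ∈ cls rL x0 → y ∈ cls rL x0 → rL x y := fun x y hx hy =>
    hL.trans (hL.symm (mem_cls.1 hx)) (mem_cls.1 hy)
  have hinv : ∀ x y, rL x y → z (z x y) (z y x) = x := by
    intro x y hxy
    have hyx := hL.symm hxy
    have hab : rL (z x y) (z y x) :=
      hL.trans (hL.symm (hzL x y hxy)) (hL.trans hxy (hzL y x hyx))
    refine (huniq x _ ?_ ?_ ?_).symm
    · exact hL.trans (hzL x y hxy) (hzL _ _ hab)
    · exact h1.trans (hz1 x y hxy) (hz1 _ _ hab)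
    · exact h2.trans (hz2 y x hyx) (hz2 _ _ hab)
  rw [Finset.sum_mul_sum, ← Finset.sum_product']
  have e1 : ∑ p ∈ cls rL x0 ×ˢ cls rL x0, U p.1 * V p.2
      = ∑ p ∈ cls rL x0 ×ˢ cls rL x0, U (z p.1 p.2) * V (z p.1 p.2) := by
    refine Finset.sum_congr rfl fun p hp => ?_
    rw [Finset.mem_product] at hp
    have h := hrel p.1 p.2 hp.1 hp.2
    rw [hU _ _ (hz1 _ _ h), hV _ _ (hz2 _ _ h)]
  have e2 : ∑ p ∈ cls rL x0 ×ˢ cls rL x0, U (z p.1 p.2) * V (z p.1 p.2)
      = ∑ p ∈ cls rL x0 ×ˢ cls rL x0, U p.1 * V p.1 := by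
    refine Finset.sum_nbij' (fun p => (z p.1 p.2, z p.2 p.1)) (fun p => (z p.1 p.2, z p.2 p.1))
      ?_ ?_ ?_ ?_ ?_
    · intro p hp
      rw [Finset.mem_product] at hp ⊢
      have h := hrel p.1 p.2 hp.1 hp.2
      exact ⟨mem_cls.2 (hL.trans (mem_cls.1 hp.1) (hzL _ _ h)),
        mem_cls.2 (hL.trans (mem_cls.1 hp.2) (hzL _ _ (hL.symm h)))⟩
    · intro p hp
      rw [Finset.mem_product] at hp ⊢
      have h := hrel p.1 p.2 hp.1 hp.2
      exact ⟨mem_cls.2 (hL.trans (mem_cls.1 hp.1) (hzL _ _ h)),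
        mem_cls.2 (hL.trans (mem_cls.1 hp.2) (hzL _ _ (hL.symm h)))⟩
    · intro p hp
      rw [Finset.mem_product] at hp
      have h := hrel p.1 p.2 hp.1 hp.2
      exact Prod.ext (hinv _ _ h) (hinv _ _ (hL.symm h))
    · intro p hp
      rw [Finset.mem_product] at hp
      have h := hrel p.1 p.2 hp.1 hp.2
      exact Prod.ext (hinv _ _ h) (hinv _ _ (hL.symm h))
    · intro p _
      rfl
  rw [e1, e2, Finset.sum_product]
  simp only [Finset.sum_const, nsmul_eq_mul]
  rw [Finset.mul_sum]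

theorem ci_of_product {r1 r2 rL : Ω → Ω → Prop} (h1 : Equivalence r1) (h2 : Equivalence r2)
    (hL : Equivalence rL) (z : Ω → Ω → Ω)
    (hzL : ∀ x y, rL x y → rL x (z x y))
    (hz1 : ∀ x y, rL x y → r1 x (z x y))
    (hz2 : ∀ x y, rL x y → r2 y (z x y))
    (huniq : ∀ a b, rL a b → r1 a b → r2 a b → a = b)
    (u v : Ω → ℝ) :
    dot (avg r1 u) (avg r2 v) = dot (avg rL (avg r1 u)) (avg rL (avg r2 v)) := by
  obtain ⟨U, hUdef⟩ : ∃ U, U = avg r1 u := ⟨_, rfl⟩
  obtain ⟨V, hVdef⟩ : ∃ V, V = avg r2 v := ⟨_, rfl⟩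
  have hU : Inv r1 U := by rw [hUdef]; exact avg_inv h1 u
  have hV : Inv r2 V := by rw [hVdef]; exact avg_inv h2 v
  rw [← hUdef, ← hVdef, avg_symm hL, avg_idem hL]
  unfold dot
  rw [sum_eq_sum_cls hL (fun x => U x * V x), sum_eq_sum_cls hL (fun x => U x * avg rL V x)]
  refine Finset.sum_congr rfl fun x0 _ => ?_
  congr 1
  have hpos : ((cls rL x0).card : ℝ) ≠ 0 := by
    have := (cls_nonempty hL x0).card_pos
    positivity
  have e : ∑ y ∈ cls rL x0, U y * avg rL V y
      = (∑ y ∈ cls rL x0, U y) * ((∑ y ∈ cls rL x0, V y) / ((cls rL x0).card : ℝ)) := by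
    rw [Finset.sum_mul]
    refine Finset.sum_congr rfl fun y hy => ?_
    rw [← avg_inv hL V x0 y (mem_cls.1 hy)]
    rfl
  rw [e, ← mul_div_assoc, ci_class h1 h2 hL z hzL hz1 hz2 huniq U V hU hV x0,
    mul_div_cancel_left₀ _ hpos]

/-- existence form of `ci_of_product` -/
theorem ci_of_exists {r1 r2 rL : Ω → Ω → Prop} (h1 : Equivalence r1) (h2 : Equivalence r2)
    (hL : Equivalence rL)
    (hex : ∀ x y, rL x y → ∃ z, rL x z ∧ r1 x z ∧ r2 y z)
    (huniq : ∀ a b, rL a b → r1 a b → r2 a b → a = b)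
    (u v : Ω → ℝ) :
    dot (avg r1 u) (avg r2 v) = dot (avg rL (avg r1 u)) (avg rL (avg r2 v)) := by
  classical
  have hex' : ∀ x y, ∃ z, rL x y → (rL x z ∧ r1 x z ∧ r2 y z) := by
    intro x y
    by_cases h : rL x y
    · obtain ⟨z, hz⟩ := hex x y h
      exact ⟨z, fun _ => hz⟩
    · exact ⟨x, fun h' => absurd h' h⟩
  choose z hz using hex'
  exact ci_of_product h1 h2 hL z (fun x y h => (hz x y h).1) (fun x y h => (hz x y h).2.1)
    (fun x y h => (hz x y h).2.2) huniq u v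

/-! ### transport along bijections, change of relation -/

theorem avg_congr {r r' : Ω → Ω → Prop} (h : ∀ x y, r x y ↔ r' x y) (f : Ω → ℝ) :
    avg r f = avg r' f := by
  have : r = r' := by
    funext x y
    exact propext (h x y)
  rw [this]

theorem dot_equiv {Ω' : Type*} [Fintype Ω'] (e : Ω ≃ Ω') (f g : Ω' → ℝ) :
    dot (fun x => f (e x)) (fun x => g (e x)) = dot f g :=
  Equiv.sum_comp e (fun y => f y * g y)

theorem avg_equiv {Ω' : Type*} [Fintype Ω'] (e : Ω ≃ Ω') {r : Ω → Ω → Prop}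
    {r' : Ω' → Ω' → Prop} (h : ∀ x y, r x y ↔ r' (e x) (e y)) (f : Ω' → ℝ) (x : Ω) :
    avg r (fun x => f (e x)) x = avg r' f (e x) := by
  have hs : ∀ F : Ω' → ℝ, ∑ y ∈ cls r x, F (e y) = ∑ y ∈ cls r' (e x), F y := by
    intro F
    refine Finset.sum_nbij' (fun y => e y) (fun y => e.symm y) ?_ ?_ ?_ ?_ ?_
    · intro y hy
      exact mem_cls.2 ((h x y).1 (mem_cls.1 hy))
    · intro y hy
      refine mem_cls.2 ((h x _).2 ?_)
      rw [Equiv.apply_symm_apply]
      exact mem_cls.1 hy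
    · intro y _
      simp
    · intro y _
      simp
    · intro y _
      rfl
  have hc : ((cls r x).card : ℝ) = ((cls r' (e x)).card : ℝ) := by
    have := hs (fun _ => (1 : ℝ))
    simpa using this
  unfold avg
  rw [hs f, hc]

end P328RC
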