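import Vale.Agent.Lib.P328.RC.Defs
import Vale.Agent.Lib.P328.RC.Abs

/-!
# P328, RC route: localisation of a (JS)-type inequality to the classes of a coarse relation,
and transport of `jsTerm` along a bijection
-/

namespace P328RC

open P335 Finset

variable {Ω : Type*} [Fintype Ω]

theorem avg_equiv' {Ω' : Type*} [Fintype Ω'] (e : Ω ≃ Ω') {r : Ω → Ω → Prop}
    {r' : Ω' → Ω' → Prop} (h : ∀ x y, r x y ↔ r' (e x) (e y)) (f : Ω' → ℝ) :
    avg r (fun x => f (e x)) = fun x => avg r' f (e x) :=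
  funext (avg_equiv e h f)

theorem jsTerm_equiv {Ω' : Type*} [Fintype Ω'] (e : Ω ≃ Ω') {R rr : Ω → Ω → Prop}
    {R' rr' : Ω' → Ω' → Prop} (hR : ∀ x y, R x y ↔ R' (e x) (e y))
    (hrr : ∀ x y, rr x y ↔ rr' (e x) (e y)) (f z : Ω' → ℝ) :
    jsTerm R rr (fun x => f (e x)) (fun x => z (e x)) = jsTerm R' rr' f z := by
  unfold jsTerm
  rw [avg_equiv' e hR f, avg_equiv' e hrr f, avg_equiv' e hrr z]
  have e1 : ((fun x => f (e x)) - fun x => avg rr' f (e x)) = fun x => (f - avg rr' f) (e x) := rfl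
  have e2 : ((fun x => f (e x)) - fun x => avg R' f (e x)) = fun x => (f - avg R' f) (e x) := rfl
  have e3 : ((fun x => z (e x)) - fun x => avg rr' z (e x)) = fun x => (z - avg rr' z) (e x) := rfl
  rw [e1, e2, e3, dot_equiv e, dot_equiv e, dot_equiv e]

theorem var_equiv {Ω' : Type*} [Fintype Ω'] (e : Ω ≃ Ω') {R : Ω → Ω → Prop}
    {R' : Ω' → Ω' → Prop} (hR : ∀ x y, R x y ↔ R' (e x) (e y)) (f : Ω' → ℝ) :
    dot ((fun x => f (e x)) - avg R (fun x => f (e x))) ((fun x => f (e x)) - avg R (fun x => f (e x)))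
      = dot (f - avg R' f) (f - avg R' f) := by
  rw [avg_equiv' e hR f]
  have e2 : ((fun x => f (e x)) - fun x => avg R' f (e x)) = fun x => (f - avg R' f) (e x) := rfl
  rw [e2, dot_equiv e]

/-- on a class of `R` the average over `R` is the mean of the restricted function -/
theorem avg_fib_self {R : Ω → Ω → Prop} (hR : Equivalence R) (x0 : Ω) (f : Ω → ℝ)
    (y : Fib R x0) : avg RT (fun a : Fib R x0 => f a.1) y = avg R f y.1 := by
  rw [← avg_fib hR (fun _ _ h => h) x0 f y]
  refine congrFun (avg_congr (fun a b => ?_) _) y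
  exact ⟨fun _ => hR.trans (hR.symm a.2) b.2, fun _ => trivial⟩

/-- `dot` of restrictions to a class -/
theorem dot_fib (R : Ω → Ω → Prop) (x0 : Ω) (u v : Ω → ℝ) :
    dot (fun a : Fib R x0 => u a.1) (fun a : Fib R x0 => v a.1) = ∑ y ∈ cls R x0, u y * v y :=
  (sum_cls_mul_eq_dot_fib R x0 u v).symm

theorem localise {R : Ω → Ω → Prop} (hR : Equivalence R) {α : Type*} (S : Finset α)
    (rr : α → Ω → Ω → Prop) (hrr : ∀ a, Equivalence (rr a)) (hle : ∀ a x y, rr a x y → R x y)
    (cst : ℝ) (f : Ω → ℝ) (z : α → Ω → ℝ)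
    (hloc : ∀ x0 : Ω,
      cst * dot ((fun y : Fib R x0 => f y.1) - avg RT (fun y : Fib R x0 => f y.1))
          ((fun y : Fib R x0 => f y.1) - avg RT (fun y : Fib R x0 => f y.1))
        ≤ ∑ a ∈ S, jsTerm RT (relFib (rr a) R x0) (fun y : Fib R x0 => f y.1)
            (fun y : Fib R x0 => z a y.1)) :
    cst * dot (f - avg R f) (f - avg R f) ≤ ∑ a ∈ S, jsTerm R (rr a) f (z a) := by
  -- pointwise densities
  have hL : cst * dot (f - avg R f) (f - avg R f)
      = ∑ x, cst * ((f - avg R f) x * (f - avg R f) x) := by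
    unfold dot
    rw [Finset.mul_sum]
  have hRt : ∑ a ∈ S, jsTerm R (rr a) f (z a)
      = ∑ x, ∑ a ∈ S, ((f - avg (rr a) f) x * (f - avg (rr a) f) x
          - 2 * ((f - avg R f) x * avg (rr a) (z a) x)
          + (z a - avg (rr a) (z a)) x * (z a - avg (rr a) (z a)) x) := by
    rw [Finset.sum_comm]
    refine Finset.sum_congr rfl fun a _ => ?_
    unfold jsTerm dot
    rw [Finset.sum_add_distrib, Finset.sum_sub_distrib, Finset.mul_sum]
  rw [hL, hRt]
  refine sum_le_sum_of_cls hR _ _ fun x0 => ?_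
  have h := hloc x0
  -- rewrite the restricted objects
  have a0 : avg RT (fun y : Fib R x0 => f y.1) = fun y : Fib R x0 => avg R f y.1 :=
    funext (avg_fib_self hR x0 f)
  have a1 : ∀ a, avg (relFib (rr a) R x0) (fun y : Fib R x0 => f y.1)
      = fun y : Fib R x0 => avg (rr a) f y.1 := fun a =>
    funext (avg_fib hR (hle a) x0 f)
  have a2 : ∀ a, avg (relFib (rr a) R x0) (fun y : Fib R x0 => z a y.1)
      = fun y : Fib R x0 => avg (rr a) (z a) y.1 := fun a =>
    funext (avg_fib hR (hle a) x0 (z a))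
  have b0 : ((fun y : Fib R x0 => f y.1) - fun y : Fib R x0 => avg R f y.1)
      = fun y : Fib R x0 => (f - avg R f) y.1 := rfl
  have b1 : ∀ a, ((fun y : Fib R x0 => f y.1) - fun y : Fib R x0 => avg (rr a) f y.1)
      = fun y : Fib R x0 => (f - avg (rr a) f) y.1 := fun _ => rfl
  have b2 : ∀ a, ((fun y : Fib R x0 => z a y.1) - fun y : Fib R x0 => avg (rr a) (z a) y.1)
      = fun y : Fib R x0 => (z a - avg (rr a) (z a)) y.1 := fun _ => rfl
  unfold jsTerm at h
  simp only [a0, a1, a2, b0, b1, b2, dot_fib] at h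
  rw [← Finset.mul_sum, Finset.sum_comm]
  refine h.trans (le_of_eq ?_)
  refine Finset.sum_congr rfl fun a _ => ?_
  rw [Finset.sum_add_distrib, Finset.sum_sub_distrib, Finset.mul_sum]

end P328RC
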