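import Vale.Agent.Lib.P328.RC.Defs

/-!
# P328, RC route: gluing two tables with the same far region and the same latent level
-/

namespace P328RC

open P335 Finset

theorem sum_split2 {α : Type*} [Fintype α] [DecidableEq α] {a b : α} (hab : a ≠ b) (f : α → ℕ) :
    ∑ x, f x = f a + f b + ∑ x ∈ (univ.erase a).erase b, f x := by
  rw [← Finset.add_sum_erase univ f (mem_univ a),
    ← Finset.add_sum_erase (univ.erase a) f (Finset.mem_erase.mpr ⟨hab.symm, mem_univ b⟩)]
  ring

theorem mem_rest2 {α : Type*} [Fintype α] [DecidableEq α] {a b x : α} :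
    x ∈ (univ.erase a).erase b ↔ x ≠ a ∧ x ≠ b := by
  simp [Finset.mem_erase, and_comm]

variable {ι κ : Type*} [Fintype ι] [Fintype κ] [DecidableEq ι] [DecidableEq κ]
variable {r : ι → ℕ} {c : κ → ℕ}

/-- block total in terms of the margins and the far total -/
theorem block_total (b : ι × ι) (b' : κ × κ) (hb : b.1 ≠ b.2) (hb' : b'.1 ≠ b'.2) (W : Tab r c) :
    W.1 b.1 b'.1 + W.1 b.1 b'.2 + W.1 b.2 b'.1 + W.1 b.2 b'.2
        + ∑ j ∈ (univ.erase b'.1).erase b'.2, c j
      = r b.1 + r b.2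
        + ∑ j ∈ (univ.erase b'.1).erase b'.2, ∑ i ∈ (univ.erase b.1).erase b.2, W.1 i j := by
  have hc : ∑ j ∈ (univ.erase b'.1).erase b'.2, c j
      = ∑ j ∈ (univ.erase b'.1).erase b'.2, W.1 b.1 j
        + ∑ j ∈ (univ.erase b'.1).erase b'.2, W.1 b.2 j
        + ∑ j ∈ (univ.erase b'.1).erase b'.2, ∑ i ∈ (univ.erase b.1).erase b.2, W.1 i j := by
    rw [← Finset.sum_add_distrib, ← Finset.sum_add_distrib]
    apply Finset.sum_congr rfl
    intro j _
    rw [← W.2.2 j, sum_split2 hb (fun i => W.1 i j)]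
  have hr1 := W.2.1 b.1
  rw [sum_split2 hb' (fun j => W.1 b.1 j)] at hr1
  have hr2 := W.2.1 b.2
  rw [sum_split2 hb' (fun j => W.1 b.2 j)] at hr2
  omega

/-- two tables with the same far region and the same latent level can be glued:
`Z = X` on the rows `b` off the columns `b'`, `Z = Y` off the rows `b`; in the block, with
`a = X b.1 b'.1 + X b.1 b'.2`, `β = Y b.1 b'.2 + Y b.2 b'.2`, `l = lat b b' X`:
`Z b.1 b'.1 = l + (a - β)`, `Z b.2 b'.2 = l + (β - a)` (truncated subtractions), the other two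
entries are forced by the margins. -/
theorem ci_exists (b : ι × ι) (b' : κ × κ) (hb : b.1 ≠ b.2) (hb' : b'.1 ≠ b'.2)
    (X Y : Tab r c) (h : RL b b' X Y) :
    ∃ Z : Tab r c, RL b b' X Z ∧ RC b' X Z ∧ RR b Y Z := by
  obtain ⟨hfar, hlat⟩ := h
  obtain ⟨i1, i2⟩ := b
  obtain ⟨j1, j2⟩ := b'
  simp only at hb hb' hfar
  -- block totals agree
  have hX := block_total (i1, i2) (j1, j2) hb hb' X
  have hY := block_total (i1, i2) (j1, j2) hb hb' Y
  simp only at hX hY
  have hF : ∑ j ∈ (univ.erase j1).erase j2, ∑ i ∈ (univ.erase i1).erase i2, X.1 i j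
      = ∑ j ∈ (univ.erase j1).erase j2, ∑ i ∈ (univ.erase i1).erase i2, Y.1 i j := by
    apply Finset.sum_congr rfl
    intro j hj
    apply Finset.sum_congr rfl
    intro i hi
    have hj' := mem_rest2.mp hj
    have hi' := mem_rest2.mp hi
    exact hfar i j hi'.1 hi'.2 hj'.1 hj'.2
  have htot : X.1 i1 j1 + X.1 i1 j2 + X.1 i2 j1 + X.1 i2 j2
      = Y.1 i1 j1 + Y.1 i1 j2 + Y.1 i2 j1 + Y.1 i2 j2 := by
    rw [hF] at hX
    omega
  set l := min (X.1 i1 j1) (X.1 i2 j2) with hl
  have hlY : l = min (Y.1 i1 j1) (Y.1 i2 j2) := hlat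
  set a1 := X.1 i1 j1 + X.1 i1 j2 with ha1
  set bq := Y.1 i1 j2 + Y.1 i2 j2 with hbq
  set bp := Y.1 i1 j1 + Y.1 i2 j1 with hbp
  set z11 := l + (a1 - bq) with hz11
  set z22 := l + (bq - a1) with hz22
  set z12 := a1 - z11 with hz12
  set z21 := bp - z11 with hz21
  have e_row1 : z11 + z12 = X.1 i1 j1 + X.1 i1 j2 := by omega
  have e_row2 : z21 + z22 = X.1 i2 j1 + X.1 i2 j2 := by omega
  have e_col1 : z11 + z21 = Y.1 i1 j1 + Y.1 i2 j1 := by omega
  have e_col2 : z12 + z22 = Y.1 i1 j2 + Y.1 i2 j2 := by omega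
  have e_lat : min z11 z22 = l := by omega
  let Zf : ι → κ → ℕ := fun i j =>
    if i = i1 then (if j = j1 then z11 else if j = j2 then z12 else X.1 i j)
    else if i = i2 then (if j = j1 then z21 else if j = j2 then z22 else X.1 i j)
    else Y.1 i j
  have Z11 : Zf i1 j1 = z11 := by simp [Zf]
  have Z12 : Zf i1 j2 = z12 := by simp [Zf, hb'.symm]
  have Z21 : Zf i2 j1 = z21 := by simp [Zf, hb.symm]
  have Z22 : Zf i2 j2 = z22 := by simp [Zf, hb.symm, hb'.symm]
  have Zrow1 : ∀ j, j ≠ j1 → j ≠ j2 → Zf i1 j = X.1 i1 j := by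
    intro j h1 h2
    simp [Zf, h1, h2]
  have Zrow2 : ∀ j, j ≠ j1 → j ≠ j2 → Zf i2 j = X.1 i2 j := by
    intro j h1 h2
    simp [Zf, h1, h2, hb.symm]
  have Zoff : ∀ i j, i ≠ i1 → i ≠ i2 → Zf i j = Y.1 i j := by
    intro i j h1 h2
    simp [Zf, h1, h2]
  have hrows : ∀ i, ∑ j, Zf i j = r i := by
    intro i
    by_cases h1 : i = i1
    · subst h1
      rw [← X.2.1 i, sum_split2 hb' (fun j => Zf i j), sum_split2 hb' (fun j => X.1 i j)]
      have : ∑ j ∈ (univ.erase j1).erase j2, Zf i j = ∑ j ∈ (univ.erase j1).erase j2, X.1 i j := by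
        apply Finset.sum_congr rfl
        intro j hj
        have hj' := mem_rest2.mp hj
        exact Zrow1 j hj'.1 hj'.2
      rw [this, Z11, Z12, e_row1]
    · by_cases h2 : i = i2
      · subst h2
        rw [← X.2.1 i, sum_split2 hb' (fun j => Zf i j), sum_split2 hb' (fun j => X.1 i j)]
        have : ∑ j ∈ (univ.erase j1).erase j2, Zf i j
            = ∑ j ∈ (univ.erase j1).erase j2, X.1 i j := by
          apply Finset.sum_congr rfl
          intro j hj
          have hj' := mem_rest2.mp hj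
          exact Zrow2 j hj'.1 hj'.2
        rw [this, Z21, Z22, e_row2]
      · rw [← Y.2.1 i]
        apply Finset.sum_congr rfl
        intro j _
        exact Zoff i j h1 h2
  have hcols : ∀ j, ∑ i, Zf i j = c j := by
    intro j
    have hrest : ∑ i ∈ (univ.erase i1).erase i2, Zf i j
        = ∑ i ∈ (univ.erase i1).erase i2, Y.1 i j := by
      apply Finset.sum_congr rfl
      intro i hi
      have hi' := mem_rest2.mp hi
      exact Zoff i j hi'.1 hi'.2
    by_cases h1 : j = j1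
    · subst h1
      rw [← Y.2.2 j, sum_split2 hb (fun i => Zf i j), sum_split2 hb (fun i => Y.1 i j), hrest,
        Z11, Z21, e_col1]
    · by_cases h2 : j = j2
      · subst h2
        rw [← Y.2.2 j, sum_split2 hb (fun i => Zf i j), sum_split2 hb (fun i => Y.1 i j), hrest,
          Z12, Z22, e_col2]
      · rw [← X.2.2 j, sum_split2 hb (fun i => Zf i j), sum_split2 hb (fun i => X.1 i j), hrest,
          Zrow1 j h1 h2, Zrow2 j h1 h2]
        congr 1
        apply Finset.sum_congr rfl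
        intro i hi
        have hi' := mem_rest2.mp hi
        exact (hfar i j hi'.1 hi'.2 h1 h2).symm
  refine ⟨⟨Zf, hrows, hcols⟩, ⟨?_, ?_⟩, ?_, ?_⟩
  · intro i j h1 h2 h3 h4
    simp only at h1 h2 h3 h4
    show X.1 i j = Zf i j
    rw [Zoff i j h1 h2]
    exact hfar i j h1 h2 h3 h4
  · show min (X.1 i1 j1) (X.1 i2 j2) = min (Zf i1 j1) (Zf i2 j2)
    rw [Z11, Z22, e_lat]
  · intro i j h3 h4
    simp only at h3 h4
    show X.1 i j = Zf i j
    by_cases h1 : i = i1
    · subst h1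
      exact (Zrow1 j h3 h4).symm
    · by_cases h2 : i = i2
      · subst h2
        exact (Zrow2 j h3 h4).symm
      · rw [Zoff i j h1 h2]
        exact hfar i j h1 h2 h3 h4
  · intro i j h1 h2
    simp only at h1 h2
    show Y.1 i j = Zf i j
    exact (Zoff i j h1 h2).symm

end P328RC
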