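import Vale.Agent.Lib.P328.RC.Defs

/-!
# P328, RC route: a table is determined by its entries outside a block and the latent level
-/

namespace P328RC

open P335 Finset

variable {ι κ : Type*} [Fintype ι] [Fintype κ] [DecidableEq ι] [DecidableEq κ]
variable {r : ι → ℕ} {c : κ → ℕ}

/-- two functions with equal sums that agree off two points have equal sums on the two points -/
private theorem two_sum_eq {α : Type*} [Fintype α] [DecidableEq α] (f g : α → ℕ) (p q : α)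
    (hpq : p ≠ q) (h : ∀ j, j ≠ p → j ≠ q → f j = g j) (hs : ∑ j, f j = ∑ j, g j) :
    f p + f q = g p + g q := by
  have hq : q ∈ (univ : Finset α).erase p := mem_erase.2 ⟨hpq.symm, mem_univ q⟩
  have e1 : ∀ u : α → ℕ, ∑ j, u j = u p + (u q + ∑ j ∈ ((univ : Finset α).erase p).erase q, u j) := by
    intro u
    rw [Finset.add_sum_erase _ u hq, Finset.add_sum_erase _ u (mem_univ p)]
  have e2 : ∑ j ∈ ((univ : Finset α).erase p).erase q, f j
      = ∑ j ∈ ((univ : Finset α).erase p).erase q, g j := by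
    apply Finset.sum_congr rfl
    intro j hj
    have h1 := (mem_erase.1 hj).1
    have h2 := (mem_erase.1 (mem_erase.1 hj).2).1
    exact h j h2 h1
  rw [e1 f, e1 g, e2] at hs
  omega

/-- a table is determined by what is outside the block and the latent level -/
theorem ci_uniq (b : ι × ι) (b' : κ × κ) (hb : b.1 ≠ b.2) (hb' : b'.1 ≠ b'.2)
    (X Y : Tab r c) (h : RL b b' X Y) (h1 : RC b' X Y) (h2 : RR b X Y) : X = Y := by
  have r1 : X.1 b.1 b'.1 + X.1 b.1 b'.2 = Y.1 b.1 b'.1 + Y.1 b.1 b'.2 :=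
    two_sum_eq (fun j => X.1 b.1 j) (fun j => Y.1 b.1 j) b'.1 b'.2 hb'
      (fun j hj1 hj2 => h1 b.1 j hj1 hj2) ((X.2.1 b.1).trans (Y.2.1 b.1).symm)
  have r2 : X.1 b.2 b'.1 + X.1 b.2 b'.2 = Y.1 b.2 b'.1 + Y.1 b.2 b'.2 :=
    two_sum_eq (fun j => X.1 b.2 j) (fun j => Y.1 b.2 j) b'.1 b'.2 hb'
      (fun j hj1 hj2 => h1 b.2 j hj1 hj2) ((X.2.1 b.2).trans (Y.2.1 b.2).symm)
  have c1 : X.1 b.1 b'.1 + X.1 b.2 b'.1 = Y.1 b.1 b'.1 + Y.1 b.2 b'.1 :=
    two_sum_eq (fun i => X.1 i b'.1) (fun i => Y.1 i b'.1) b.1 b.2 hb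
      (fun i hi1 hi2 => h2 i b'.1 hi1 hi2) ((X.2.2 b'.1).trans (Y.2.2 b'.1).symm)
  have c2 : X.1 b.1 b'.2 + X.1 b.2 b'.2 = Y.1 b.1 b'.2 + Y.1 b.2 b'.2 :=
    two_sum_eq (fun i => X.1 i b'.2) (fun i => Y.1 i b'.2) b.1 b.2 hb
      (fun i hi1 hi2 => h2 i b'.2 hi1 hi2) ((X.2.2 b'.2).trans (Y.2.2 b'.2).symm)
  have hl : min (X.1 b.1 b'.1) (X.1 b.2 b'.2) = min (Y.1 b.1 b'.1) (Y.1 b.2 b'.2) := h.2
  have e11 : X.1 b.1 b'.1 = Y.1 b.1 b'.1 := by omega
  have e12 : X.1 b.1 b'.2 = Y.1 b.1 b'.2 := by omega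
  have e21 : X.1 b.2 b'.1 = Y.1 b.2 b'.1 := by omega
  have e22 : X.1 b.2 b'.2 = Y.1 b.2 b'.2 := by omega
  apply Tab.ext
  intro i j
  by_cases hi1 : i = b.1
  · subst hi1
    by_cases hj1 : j = b'.1
    · subst hj1; exact e11
    · by_cases hj2 : j = b'.2
      · subst hj2; exact e12
      · exact h1 _ j hj1 hj2
  · by_cases hi2 : i = b.2
    · subst hi2
      by_cases hj1 : j = b'.1
      · subst hj1; exact e21
      · by_cases hj2 : j = b'.2
        · subst hj2; exact e22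
        · exact h1 _ j hj1 hj2
    · exact h2 i j hi1 hi2

end P328RC
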