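import Vale.Agent.Lib.P328.RC.CIExists
import Vale.Agent.Lib.P328.RC.CIUniq
import Vale.Agent.Lib.P328.RC.Abs

/-!
# P328, RC route: conditional independence of (rows `b` off `b'`) and (columns `b'` off `b`)
given the far region and the latent level of the block
-/

namespace P328RC

open P335 Finset

variable {ι κ : Type*} [Fintype ι] [Fintype κ] [DecidableEq ι] [DecidableEq κ]
variable {r : ι → ℕ} {c : κ → ℕ}

theorem ci_tab (b : ι × ι) (b' : κ × κ) (hb : b.1 ≠ b.2) (hb' : b'.1 ≠ b'.2)
    (u v : Tab r c → ℝ) :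
    dot (avg (RC b') u) (avg (RR b) v)
      = dot (avg (RL b b') (avg (RC b') u)) (avg (RL b b') (avg (RR b) v)) :=
  ci_of_exists (RC_equiv b') (RR_equiv b) (RL_equiv b b') (ci_exists b b' hb hb')
    (ci_uniq b b' hb hb') u v

end P328RC
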