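import Vale.Agent.Lib.P335.Avg
import Vale.Agent.Lib.P335.Fibre
import Vale.Agent.Lib.P335.Hilbert

/-!
# P328, RC route: definitions

Contingency tables `Tab r c` as a finite type, the equivalence relations whose averaging operators
are the conditional expectations of the RC route, the two-row systems `Y2 t s` and the statement
`JS κ c` of the two-row inequality.
-/

namespace P328RC

open P335 Finset

/-- ordered pairs `p.1 < p.2`, i.e. two-element subsets -/
def pr (α : Type*) [Fintype α] [LinearOrder α] : Finset (α × α) :=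
  univ.filter (fun p => p.1 < p.2)

theorem mem_pr {α : Type*} [Fintype α] [LinearOrder α] {p : α × α} : p ∈ pr α ↔ p.1 < p.2 := by
  simp [pr]

/-- the total relation: `avg RT` is the mean -/
def RT {Ω : Type*} : Ω → Ω → Prop := fun _ _ => True

theorem RT_equiv {Ω : Type*} : Equivalence (RT (Ω := Ω)) :=
  ⟨fun _ => trivial, fun _ => trivial, fun _ _ => trivial⟩

section tables

variable {ι κ : Type*} [Fintype ι] [Fintype κ]

/-- contingency tables with row sums `r` and column sums `c` -/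
def Tab (r : ι → ℕ) (c : κ → ℕ) : Type _ :=
  {X : ι → κ → ℕ // (∀ i, ∑ j, X i j = r i) ∧ (∀ j, ∑ i, X i j = c j)}

variable {r : ι → ℕ} {c : κ → ℕ}

theorem Tab.ext {X Y : Tab r c} (h : ∀ i j, X.1 i j = Y.1 i j) : X = Y :=
  Subtype.ext (funext fun i => funext fun j => h i j)

theorem Tab.le_row (X : Tab r c) (i : ι) (j : κ) : X.1 i j ≤ r i := by
  rw [← X.2.1 i]
  exact Finset.single_le_sum (f := fun j => X.1 i j) (fun _ _ => Nat.zero_le _) (mem_univ j)

theorem Tab.le_col (X : Tab r c) (i : ι) (j : κ) : X.1 i j ≤ c j := by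
  rw [← X.2.2 j]
  exact Finset.single_le_sum (f := fun i => X.1 i j) (fun _ _ => Nat.zero_le _) (mem_univ i)

/-- bounded encoding of a table -/
def Tab.enc (X : Tab r c) : (i : ι) → κ → Fin (r i + 1) :=
  fun i j => ⟨X.1 i j, Nat.lt_succ_of_le (X.le_row i j)⟩

theorem Tab.enc_injective : Function.Injective (Tab.enc (r := r) (c := c)) := by
  intro X Y h
  apply Tab.ext
  intro i j
  have := congrArg (fun F => ((F i j : Fin (r i + 1)) : ℕ)) h
  simpa [Tab.enc] using this

open Classical in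
noncomputable instance : Fintype (Tab r c) := Fintype.ofInjective Tab.enc Tab.enc_injective

/-- agree outside the two rows `b` -/
def RR (b : ι × ι) (X Y : Tab r c) : Prop := ∀ i j, i ≠ b.1 → i ≠ b.2 → X.1 i j = Y.1 i j

/-- agree outside the two columns `b'` -/
def RC (b' : κ × κ) (X Y : Tab r c) : Prop := ∀ i j, j ≠ b'.1 → j ≠ b'.2 → X.1 i j = Y.1 i j

/-- agree outside the `2 × 2` block `b × b'` -/
def RX (b : ι × ι) (b' : κ × κ) (X Y : Tab r c) : Prop :=
  ∀ i j, ¬((i = b.1 ∨ i = b.2) ∧ (j = b'.1 ∨ j = b'.2)) → X.1 i j = Y.1 i j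

/-- the latent level of the block -/
def lat (b : ι × ι) (b' : κ × κ) (X : Tab r c) : ℕ := min (X.1 b.1 b'.1) (X.1 b.2 b'.2)

/-- agree on the far region (outside the rows `b` and outside the columns `b'`) and have the same
latent level -/
def RL (b : ι × ι) (b' : κ × κ) (X Y : Tab r c) : Prop :=
  (∀ i j, i ≠ b.1 → i ≠ b.2 → j ≠ b'.1 → j ≠ b'.2 → X.1 i j = Y.1 i j) ∧ lat b b' X = lat b b' Y

theorem RR_equiv (b : ι × ι) : Equivalence (RR (r := r) (c := c) b) :=
  ⟨fun _ _ _ _ _ => rfl, fun h i j h1 h2 => (h i j h1 h2).symm,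
    fun h h' i j h1 h2 => (h i j h1 h2).trans (h' i j h1 h2)⟩

theorem RC_equiv (b' : κ × κ) : Equivalence (RC (r := r) (c := c) b') :=
  ⟨fun _ _ _ _ _ => rfl, fun h i j h1 h2 => (h i j h1 h2).symm,
    fun h h' i j h1 h2 => (h i j h1 h2).trans (h' i j h1 h2)⟩

theorem RX_equiv (b : ι × ι) (b' : κ × κ) : Equivalence (RX (r := r) (c := c) b b') :=
  ⟨fun _ _ _ _ => rfl, fun h i j h1 => (h i j h1).symm,
    fun h h' i j h1 => (h i j h1).trans (h' i j h1)⟩

theorem RL_equiv (b : ι × ι) (b' : κ × κ) : Equivalence (RL (r := r) (c := c) b b') :=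
  ⟨fun _ => ⟨fun _ _ _ _ _ _ => rfl, rfl⟩,
    fun h => ⟨fun i j h1 h2 h3 h4 => (h.1 i j h1 h2 h3 h4).symm, h.2.symm⟩,
    fun h h' => ⟨fun i j h1 h2 h3 h4 => (h.1 i j h1 h2 h3 h4).trans (h'.1 i j h1 h2 h3 h4),
      h.2.trans h'.2⟩⟩

theorem RX_le_RR (b : ι × ι) (b' : κ × κ) (X Y : Tab r c) (h : RX b b' X Y) : RR b X Y :=
  fun i j h1 h2 => h i j (fun hc => hc.1.elim h1 h2)

theorem RX_le_RC (b : ι × ι) (b' : κ × κ) (X Y : Tab r c) (h : RX b b' X Y) : RC b' X Y :=
  fun i j h1 h2 => h i j (fun hc => hc.2.elim h1 h2)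

end tables

section tworow

variable {κ : Type*} [Fintype κ]

/-- the two-row system: `x j ≤ t j`, `∑ x = s` (first row of a two-rowed table with column sums
`t` and first row sum `s`) -/
def Y2 (t : κ → ℕ) (s : ℕ) : Type _ := {x : κ → ℕ // (∀ j, x j ≤ t j) ∧ ∑ j, x j = s}

variable {t : κ → ℕ} {s : ℕ}

def Y2.enc (x : Y2 t s) : (j : κ) → Fin (t j + 1) := fun j => ⟨x.1 j, Nat.lt_succ_of_le (x.2.1 j)⟩

theorem Y2.enc_injective : Function.Injective (Y2.enc (t := t) (s := s)) := by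
  intro x y h
  apply Subtype.ext
  funext j
  have := congrArg (fun F => ((F j : Fin (t j + 1)) : ℕ)) h
  simpa [Y2.enc] using this

open Classical in
noncomputable instance : Fintype (Y2 t s) := Fintype.ofInjective Y2.enc Y2.enc_injective

/-- agree outside the two sites `J` -/
def RJ (J : κ × κ) (x y : Y2 t s) : Prop := ∀ k, k ≠ J.1 → k ≠ J.2 → x.1 k = y.1 k

theorem RJ_equiv (J : κ × κ) : Equivalence (RJ (t := t) (s := s) J) :=
  ⟨fun _ _ _ _ => rfl, fun h k h1 h2 => (h k h1 h2).symm,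
    fun h h' k h1 h2 => (h k h1 h2).trans (h' k h1 h2)⟩

/-- the latent level of the pair `J` -/
def lat2 (J : κ × κ) (x : Y2 t s) : ℕ := min (x.1 J.1) (t J.2 - x.1 J.2)

end tworow

/-- the (JS)-type expression `|f - E_rr f|^2 - 2 <f - E_R f, E_rr z> + |z - E_rr z|^2` -/
noncomputable def jsTerm {Ω : Type*} [Fintype Ω] (R rr : Ω → Ω → Prop) (f z : Ω → ℝ) : ℝ :=
  dot (f - avg rr f) (f - avg rr f) - 2 * dot (f - avg R f) (avg rr z)
    + dot (z - avg rr z) (z - avg rr z)

/-- The two-row inequality (JS) with constant `c`, for column index type `κ`: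
for every two-row system, every `g` and every family `z J` of functions of the latent level
`lat2 J`,
`c Var g ≤ ∑_J (|Q_J g|^2 - 2 <g - E g, E_J z_J> + |Q_J z_J|^2)`
(unnormalised inner products). -/
def JS (κ : Type*) [Fintype κ] [LinearOrder κ] (c : ℝ) : Prop :=
  ∀ (t : κ → ℕ) (s : ℕ) (g : Y2 t s → ℝ) (z : κ × κ → Y2 t s → ℝ),
    (∀ J x y, lat2 J x = lat2 J y → z J x = z J y) →
    c * dot (g - avg RT g) (g - avg RT g) ≤ ∑ J ∈ pr κ, jsTerm RT (RJ J) g (z J)

end P328RC
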