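import Vale.Agent.Lib.P328.RC.FibreRow

/-!
# P328, RC route: the column form of (JS), by transposition
-/

namespace P328RC

open P335 Finset

variable {ι κ : Type*} [Fintype ι] [Fintype κ] [LinearOrder ι] [LinearOrder κ]
variable {r : ι → ℕ} {c : κ → ℕ}

/-- transposition of tables -/
def trEquiv : Tab r c ≃ Tab c r where
  toFun X := ⟨fun j i => X.1 i j, X.2.2, X.2.1⟩
  invFun X := ⟨fun i j => X.1 j i, X.2.2, X.2.1⟩
  left_inv _ := rfl
  right_inv _ := rfl

theorem RC_tr (b' : κ × κ) (X Y : Tab r c) :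
    RC b' X Y ↔ RR b' (trEquiv X) (trEquiv Y) :=
  ⟨fun h j i h1 h2 => h i j h1 h2, fun h i j h1 h2 => h j i h1 h2⟩

theorem RX_tr (b : ι × ι) (b' : κ × κ) (X Y : Tab r c) :
    RX b b' X Y ↔ RX b' b (trEquiv X) (trEquiv Y) :=
  ⟨fun h j i hn => h i j (fun hc => hn ⟨hc.2, hc.1⟩),
    fun h i j hn => h j i (fun hc => hn ⟨hc.2, hc.1⟩)⟩

theorem RL_tr (b : ι × ι) (b' : κ × κ) (X Y : Tab r c) :
    RL b b' X Y ↔ RL b' b (trEquiv X) (trEquiv Y) :=
  ⟨fun h => ⟨fun j i h1 h2 h3 h4 => h.1 i j h3 h4 h1 h2, h.2⟩,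
    fun h => ⟨fun i j h1 h2 h3 h4 => h.1 j i h3 h4 h1 h2, h.2⟩⟩

/-- column form of (JS) -/
theorem js_col {cst : ℝ} (hJS : JS ι cst) (b' : κ × κ) (hb' : b'.1 ≠ b'.2) (f : Tab r c → ℝ)
    (z : ι × ι → Tab r c → ℝ) (hz : ∀ b, Inv (RL b b') (z b)) :
    cst * dot (f - avg (RC b') f) (f - avg (RC b') f)
      ≤ ∑ b ∈ pr ι, jsTerm (RC b') (RX b b') f (z b) := by
  have hz' : ∀ b : ι × ι, Inv (RL (r := c) (c := r) b' b)
      (fun Y : Tab c r => z b (trEquiv.symm Y)) := by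
    intro b X Y h
    refine hz b _ _ ?_
    rw [RL_tr]
    simpa using h
  have h := js_row (r := c) (c := r) hJS b' hb' (fun Y : Tab c r => f (trEquiv.symm Y))
    (fun b (Y : Tab c r) => z b (trEquiv.symm Y)) hz'
  have hv := var_equiv (trEquiv (r := r) (c := c)) (RC_tr b')
    (fun Y : Tab c r => f (trEquiv.symm Y))
  have ht : ∀ b : ι × ι, jsTerm (RC b') (RX b b') f (z b)
      = jsTerm (RR (r := c) (c := r) b') (RX b' b) (fun Y : Tab c r => f (trEquiv.symm Y))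
          (fun Y : Tab c r => z b (trEquiv.symm Y)) := by
    intro b
    have := jsTerm_equiv (trEquiv (r := r) (c := c)) (RC_tr b') (RX_tr b b')
      (fun Y : Tab c r => f (trEquiv.symm Y)) (fun Y : Tab c r => z b (trEquiv.symm Y))
    simpa using this
  simp only [Equiv.symm_apply_apply] at hv
  rw [Finset.sum_congr rfl (fun b _ => ht b)]
  have hv' : dot (f - avg (RC b') f) (f - avg (RC b') f)
      = dot ((fun Y : Tab c r => f (trEquiv.symm Y)) - avg (RR b') (fun Y : Tab c r => f (trEquiv.symm Y)))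
          ((fun Y : Tab c r => f (trEquiv.symm Y)) - avg (RR b') (fun Y : Tab c r => f (trEquiv.symm Y))) :=
    hv
  rw [hv']
  exact h

end P328RC
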