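import Vale.Agent.Lib.P328.RC.Defs

/-!
# P328, RC route: the classes of `RR b` are two-row systems
-/

namespace P328RC

open P335 Finset

variable {ι κ : Type*} [Fintype ι] [Fintype κ] [DecidableEq ι] [DecidableEq κ]
variable {r : ι → ℕ} {c : κ → ℕ}

/-- caps of the two-row system attached to the class of `X0` -/
def tcap (b : ι × ι) (X0 : Tab r c) : κ → ℕ := fun j => X0.1 b.1 j + X0.1 b.2 j

omit [Fintype κ] [DecidableEq κ] in
/-- split a sum over the rows into the two rows `b` and the rest -/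
theorem sum_split_two (b : ι × ι) (hb : b.1 ≠ b.2) (f : ι → ℕ) :
    ∑ i, f i = f b.1 + f b.2 + ∑ i ∈ (univ.erase b.1).erase b.2, f i := by
  rw [← Finset.add_sum_erase univ f (mem_univ b.1),
    ← Finset.add_sum_erase (univ.erase b.1) f (mem_erase.2 ⟨hb.symm, mem_univ _⟩), add_assoc]

/-- in the class of `X0` the two rows `b` add up to `tcap` -/
theorem fib_add (b : ι × ι) (hb : b.1 ≠ b.2) (X0 : Tab r c) (Y : Fib (RR b) X0) (j : κ) :
    Y.1.1 b.1 j + Y.1.1 b.2 j = tcap b X0 j := by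
  have h1 := Y.1.2.2 j
  have h2 := X0.2.2 j
  rw [sum_split_two b hb (fun i => Y.1.1 i j)] at h1
  rw [sum_split_two b hb (fun i => X0.1 i j)] at h2
  have h3 : ∑ i ∈ (univ.erase b.1).erase b.2, Y.1.1 i j
      = ∑ i ∈ (univ.erase b.1).erase b.2, X0.1 i j := by
    refine Finset.sum_congr rfl fun i hi => ?_
    have hi2 : i ≠ b.2 := (mem_erase.1 hi).1
    have hi1 : i ≠ b.1 := (mem_erase.1 (mem_erase.1 hi).2).1
    exact (Y.2 i j hi1 hi2).symm
  unfold tcap
  omega

/-- first row of the pair -/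
def rowMap (b : ι × ι) (hb : b.1 ≠ b.2) (X0 : Tab r c) (Y : Fib (RR b) X0) :
    Y2 (tcap b X0) (r b.1) :=
  ⟨fun j => Y.1.1 b.1 j, fun j => (Nat.le_add_right _ _).trans (fib_add b hb X0 Y j).le,
    Y.1.2.1 b.1⟩

theorem rowMap_bijective (b : ι × ι) (hb : b.1 ≠ b.2) (X0 : Tab r c) :
    Function.Bijective (rowMap b hb X0) := by
  constructor
  · intro Y Y' h
    have h1 : ∀ j, Y.1.1 b.1 j = Y'.1.1 b.1 j := fun j =>
      congrArg (fun x : Y2 (tcap b X0) (r b.1) => x.1 j) h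
    apply Subtype.ext
    apply Tab.ext
    intro i j
    by_cases hi1 : i = b.1
    · rw [hi1]; exact h1 j
    by_cases hi2 : i = b.2
    · rw [hi2]
      have e1 := fib_add b hb X0 Y j
      have e2 := fib_add b hb X0 Y' j
      have e3 := h1 j
      omega
    · exact (Y.2 i j hi1 hi2).symm.trans (Y'.2 i j hi1 hi2)
  · intro x
    let Z : ι → κ → ℕ := fun i j =>
      if i = b.1 then x.1 j else if i = b.2 then tcap b X0 j - x.1 j else X0.1 i j
    have Z1 : ∀ j, Z b.1 j = x.1 j := fun j => by simp [Z]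
    have Z2 : ∀ j, Z b.2 j = tcap b X0 j - x.1 j := fun j => by
      simp [Z, hb.symm]
    have Z3 : ∀ i j, i ≠ b.1 → i ≠ b.2 → Z i j = X0.1 i j := fun i j h1 h2 => by
      simp [Z, h1, h2]
    have hrow : ∀ i, ∑ j, Z i j = r i := by
      intro i
      by_cases hi1 : i = b.1
      · rw [hi1]
        simp only [Z1]
        exact x.2.2
      by_cases hi2 : i = b.2
      · rw [hi2]
        simp only [Z2]
        have e1 : ∑ j, (tcap b X0 j - x.1 j) + ∑ j, x.1 j = ∑ j, tcap b X0 j := by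
          rw [← Finset.sum_add_distrib]
          exact Finset.sum_congr rfl fun j _ => Nat.sub_add_cancel (x.2.1 j)
        have e2 : ∑ j, tcap b X0 j = r b.1 + r b.2 := by
          unfold tcap
          rw [Finset.sum_add_distrib, X0.2.1 b.1, X0.2.1 b.2]
        have e3 := x.2.2
        omega
      · rw [← X0.2.1 i]
        exact Finset.sum_congr rfl fun j _ => Z3 i j hi1 hi2
    have hcol : ∀ j, ∑ i, Z i j = c j := by
      intro j
      rw [← X0.2.2 j, sum_split_two b hb (fun i => Z i j), sum_split_two b hb (fun i => X0.1 i j)]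
      have h3 : ∑ i ∈ (univ.erase b.1).erase b.2, Z i j
          = ∑ i ∈ (univ.erase b.1).erase b.2, X0.1 i j := by
        refine Finset.sum_congr rfl fun i hi => ?_
        have hi2 : i ≠ b.2 := (mem_erase.1 hi).1
        have hi1 : i ≠ b.1 := (mem_erase.1 (mem_erase.1 hi).2).1
        exact Z3 i j hi1 hi2
      have e1 := x.2.1 j
      have e2 : tcap b X0 j = X0.1 b.1 j + X0.1 b.2 j := rfl
      simp only [Z1, Z2, h3]
      omega
    refine ⟨⟨⟨Z, hrow, hcol⟩, fun i j h1 h2 => (Z3 i j h1 h2).symm⟩, ?_⟩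
    apply Subtype.ext
    funext j
    exact Z1 j

noncomputable def rowEquiv (b : ι × ι) (hb : b.1 ≠ b.2) (X0 : Tab r c) :
    Fib (RR b) X0 ≃ Y2 (tcap b X0) (r b.1) :=
  Equiv.ofBijective (rowMap b hb X0) (rowMap_bijective b hb X0)

theorem rowEquiv_apply (b : ι × ι) (hb : b.1 ≠ b.2) (X0 : Tab r c) (Y : Fib (RR b) X0) (j : κ) :
    (rowEquiv b hb X0 Y).1 j = Y.1.1 b.1 j := rfl

theorem rowEquiv_RX (b : ι × ι) (hb : b.1 ≠ b.2) (X0 : Tab r c) (b' : κ × κ)
    (Y Y' : Fib (RR b) X0) :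
    relFib (RX b b') (RR b) X0 Y Y' ↔ RJ b' (rowEquiv b hb X0 Y) (rowEquiv b hb X0 Y') := by
  constructor
  · intro h k h1 h2
    rw [rowEquiv_apply, rowEquiv_apply]
    exact h b.1 k (fun hc => hc.2.elim h1 h2)
  · intro h i j hij
    have hJ : ∀ k, k ≠ b'.1 → k ≠ b'.2 → Y.1.1 b.1 k = Y'.1.1 b.1 k := fun k h1 h2 => by
      have := h k h1 h2
      rwa [rowEquiv_apply, rowEquiv_apply] at this
    by_cases hi1 : i = b.1
    · have hj1 : j ≠ b'.1 := fun e => hij ⟨Or.inl hi1, Or.inl e⟩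
      have hj2 : j ≠ b'.2 := fun e => hij ⟨Or.inl hi1, Or.inr e⟩
      rw [hi1]; exact hJ j hj1 hj2
    by_cases hi2 : i = b.2
    · have hj1 : j ≠ b'.1 := fun e => hij ⟨Or.inr hi2, Or.inl e⟩
      have hj2 : j ≠ b'.2 := fun e => hij ⟨Or.inr hi2, Or.inr e⟩
      rw [hi2]
      have e1 := fib_add b hb X0 Y j
      have e2 := fib_add b hb X0 Y' j
      have e3 := hJ j hj1 hj2
      omega
    · exact (Y.2 i j hi1 hi2).symm.trans (Y'.2 i j hi1 hi2)

theorem rowEquiv_lat (b : ι × ι) (hb : b.1 ≠ b.2) (X0 : Tab r c) (b' : κ × κ)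
    (Y : Fib (RR b) X0) : lat2 b' (rowEquiv b hb X0 Y) = lat b b' Y.1 := by
  unfold lat2 lat
  rw [rowEquiv_apply, rowEquiv_apply]
  have e1 := fib_add b hb X0 Y b'.2
  have e2 : tcap b X0 b'.2 - Y.1.1 b.1 b'.2 = Y.1.1 b.2 b'.2 := by omega
  rw [e2]

end P328RC
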