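import Vale.Agent.Lib.P328.RC.Local
import Vale.Agent.Lib.P328.RC.RowEquiv

/-!
# P328, RC route: the row form of (JS)
-/

namespace P328RC

open P335 Finset

variable {ι κ : Type*} [Fintype ι] [Fintype κ] [LinearOrder ι] [LinearOrder κ]
variable {r : ι → ℕ} {c : κ → ℕ}

/-- row form of (JS) -/
theorem js_row {cst : ℝ} (hJS : JS κ cst) (b : ι × ι) (hb : b.1 ≠ b.2) (f : Tab r c → ℝ)
    (z : κ × κ → Tab r c → ℝ) (hz : ∀ b', Inv (RL b b') (z b')) :
    cst * dot (f - avg (RR b) f) (f - avg (RR b) f)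
      ≤ ∑ b' ∈ pr κ, jsTerm (RR b) (RX b b') f (z b') := by
  refine localise (RR_equiv b) (pr κ) (fun b' => RX b b') (fun b' => RX_equiv b b')
    (fun b' x y h => RX_le_RR b b' x y h) cst f z ?_
  intro X0
  set e := rowEquiv b hb X0 with he
  set g' : Y2 (tcap b X0) (r b.1) → ℝ := fun x => f (e.symm x).1 with hg'
  set z' : κ × κ → Y2 (tcap b X0) (r b.1) → ℝ := fun J x => z J (e.symm x).1 with hz'
  have hf : (fun y : Fib (RR b) X0 => f y.1) = fun y => g' (e y) := by
    funext y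
    simp [hg']
  have hzz : ∀ J, (fun y : Fib (RR b) X0 => z J y.1) = fun y => z' J (e y) := by
    intro J
    funext y
    simp [hz']
  have hinv : ∀ J x y, lat2 J x = lat2 J y → z' J x = z' J y := by
    intro J x y hxy
    apply hz J
    refine ⟨fun i j h1 h2 _ _ => ?_, ?_⟩
    · exact ((e.symm x).2 i j h1 h2).symm.trans ((e.symm y).2 i j h1 h2)
    · have h1 := rowEquiv_lat b hb X0 J (e.symm x)
      have h2 := rowEquiv_lat b hb X0 J (e.symm y)
      rw [← he, Equiv.apply_symm_apply] at h1 h2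
      rw [← h1, ← h2]
      exact hxy
  have key := hJS (tcap b X0) (r b.1) g' z' hinv
  rw [hf, var_equiv e (R := RT) (R' := RT) (fun _ _ => Iff.rfl) g']
  refine key.trans (le_of_eq ?_)
  refine Finset.sum_congr rfl fun J _ => ?_
  rw [hzz J]
  exact (jsTerm_equiv e (R := RT) (R' := RT) (fun _ _ => Iff.rfl)
    (fun x y => rowEquiv_RX b hb X0 J x y) g' (z' J)).symm

end P328RC
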