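import Vale.Agent.Lib.P328.RC.Defs
import Vale.Agent.Lib.P328.BlockMoves

/-!
# P328, RC route: a function invariant under all row-pair resamplings is constant
-/

namespace P328RC

open P335 Finset

variable {ι κ : Type*} [Fintype ι] [Fintype κ] [LinearOrder ι] [LinearOrder κ]
variable {r : ι → ℕ} {c : κ → ℕ}

theorem const_of_inv (k : Tab r c → ℝ) (h : ∀ b ∈ pr ι, Inv (RR b) k) (X Y : Tab r c) :
    k X = k Y := by
  classical
  have key : ∀ (n : ℕ) (A B : ι → κ → ℕ), Vale.Agent.Lib.P328.Reach n A B →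
      ∀ (hA : (∀ i, ∑ j, A i j = r i) ∧ (∀ j, ∑ i, A i j = c j))
        (hB : (∀ i, ∑ j, B i j = r i) ∧ (∀ j, ∑ i, B i j = c j)),
        k ⟨A, hA⟩ = k ⟨B, hB⟩ := by
    intro n A B hR
    induction hR with
    | refl A => intro hA hB; rfl
    | @tail n A M Z hR hs ih =>
      intro hA hB
      have hm := hR.sameMargins
      have hM : (∀ i, ∑ j, M i j = r i) ∧ (∀ j, ∑ i, M i j = c j) :=
        ⟨fun i => (hm.1 i).symm.trans (hA.1 i), fun j => (hm.2 j).symm.trans (hA.2 j)⟩
      rw [ih hA hM]
      obtain ⟨hm', i, i', j, j', hh⟩ := hs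
      rcases lt_trichotomy i i' with hlt | heq | hgt
      · exact h (i, i') (mem_pr.2 hlt) ⟨M, hM⟩ ⟨Z, hB⟩
          (fun a b h1 h2 => hh a b (fun hc => hc.1.elim h1 h2))
      · subst heq
        have hne : ∀ a b, a ≠ i → M a b = Z a b :=
          fun a b ha => hh a b (fun hc => hc.1.elim ha ha)
        have hMZ : M = Z := by
          funext a b
          by_cases ha : a = i
          · subst ha
            have h1 := hm'.2 b
            rw [← Finset.add_sum_erase univ (fun x => M x b) (mem_univ a),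
              ← Finset.add_sum_erase univ (fun x => Z x b) (mem_univ a)] at h1
            have h2 : ∑ x ∈ univ.erase a, M x b = ∑ x ∈ univ.erase a, Z x b :=
              Finset.sum_congr rfl (fun x hx => hne x b (Finset.ne_of_mem_erase hx))
            rw [h2] at h1
            exact Nat.add_right_cancel h1
          · exact hne a b ha
        subst hMZ
        rfl
      · exact h (i', i) (mem_pr.2 hgt) ⟨M, hM⟩ ⟨Z, hB⟩
          (fun a b h1 h2 => hh a b (fun hc => hc.1.elim h2 h1))
  have hXY : Vale.Agent.Lib.P328.SameMargins X.1 Y.1 :=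
    ⟨fun i => (X.2.1 i).trans (Y.2.1 i).symm, fun j => (X.2.2 j).trans (Y.2.2 j).symm⟩
  obtain ⟨n, -, hn⟩ := Vale.Agent.Lib.P328.reach_bound X.1 Y.1 hXY
  exact key n X.1 Y.1 hn X.2 Y.2

end P328RC
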