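import Vale.Agent.Lib.P328.RC.CITab
import Vale.Agent.Lib.P328.RC.FibreCol
import Vale.Agent.Lib.P328.RC.Kernel

/-!
# P328, RC route: the spectral gap of `A = A_R + A_C` and the Poincare inequality of the
`2 × 2` heat-bath dynamics, from the two-row inequality (JS)
-/

namespace P328RC

open P335 Finset

variable {ι κ : Type*} [Fintype ι] [Fintype κ] [LinearOrder ι] [LinearOrder κ]
variable {r : ι → ℕ} {c : κ → ℕ}

/-- termwise consequence of (GL) -/
theorem cross_term (b : ι × ι) (b' : κ × κ) (hb : b.1 ≠ b.2) (hb' : b'.1 ≠ b'.2)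
    (f : Tab r c → ℝ) :
    jsTerm (RR b) (RX b b') f (avg (RL b b') (avg (RC b') f))
      + jsTerm (RC b') (RX b b') f (avg (RL b b') (avg (RR b) f))
      ≤ 2 * dot (f - avg (RR b) f) (f - avg (RC b') f) := by
  have h := gl_ineq (RC_equiv (r := r) (c := c) b') (RR_equiv b) (RX_equiv b b') (RL_equiv b b')
    (RX_le_RC b b') (RX_le_RR b b') (ci_tab b b' hb hb') f
  unfold jsTerm
  linarith

/-- (RC): the anticommutator bound -/
theorem cross_sum {cst : ℝ} (hι : JS ι cst) (hκ : JS κ cst) (f : Tab r c → ℝ) :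
    cst * (∑ b ∈ pr ι, dot (f - avg (RR b) f) (f - avg (RR b) f)
        + ∑ b' ∈ pr κ, dot (f - avg (RC b') f) (f - avg (RC b') f))
      ≤ 2 * ∑ b ∈ pr ι, ∑ b' ∈ pr κ, dot (f - avg (RR b) f) (f - avg (RC b') f) := by
  have h1 : ∑ b ∈ pr ι, cst * dot (f - avg (RR b) f) (f - avg (RR b) f)
      ≤ ∑ b ∈ pr ι, ∑ b' ∈ pr κ,
          jsTerm (RR b) (RX b b') f (avg (RL b b') (avg (RC b') f)) := by
    refine Finset.sum_le_sum fun b hb => ?_
    exact js_row hκ b (ne_of_lt (mem_pr.1 hb)) f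
      (fun b' => avg (RL b b') (avg (RC b') f)) (fun b' => avg_inv (RL_equiv b b') _)
  have h2 : ∑ b' ∈ pr κ, cst * dot (f - avg (RC b') f) (f - avg (RC b') f)
      ≤ ∑ b' ∈ pr κ, ∑ b ∈ pr ι,
          jsTerm (RC b') (RX b b') f (avg (RL b b') (avg (RR b) f)) := by
    refine Finset.sum_le_sum fun b' hb' => ?_
    exact js_col hι b' (ne_of_lt (mem_pr.1 hb')) f
      (fun b => avg (RL b b') (avg (RR b) f)) (fun b => avg_inv (RL_equiv b b') _)
  have h3 : ∑ b ∈ pr ι, ∑ b' ∈ pr κ,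
        (jsTerm (RR b) (RX b b') f (avg (RL b b') (avg (RC b') f))
          + jsTerm (RC b') (RX b b') f (avg (RL b b') (avg (RR b) f)))
      ≤ ∑ b ∈ pr ι, ∑ b' ∈ pr κ, 2 * dot (f - avg (RR b) f) (f - avg (RC b') f) := by
    refine Finset.sum_le_sum fun b hb => Finset.sum_le_sum fun b' hb' => ?_
    exact cross_term b b' (ne_of_lt (mem_pr.1 hb)) (ne_of_lt (mem_pr.1 hb')) f
  rw [Finset.sum_comm] at h2
  simp only [Finset.sum_add_distrib] at h3
  simp only [← Finset.mul_sum] at h1 h2 h3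
  rw [mul_add]
  linarith

/-- the operator `A = A_R + A_C` -/
noncomputable def opA (r : ι → ℕ) (c : κ → ℕ) : (Tab r c → ℝ) →ₗ[ℝ] (Tab r c → ℝ) :=
  (∑ b ∈ pr ι, (LinearMap.id - avgL (RR b))) + ∑ b' ∈ pr κ, (LinearMap.id - avgL (RC b'))

theorem opA_apply (f : Tab r c → ℝ) :
    opA r c f = (∑ b ∈ pr ι, (f - avg (RR b) f)) + ∑ b' ∈ pr κ, (f - avg (RC b') f) := by
  simp [opA, LinearMap.sum_apply]

theorem dot_Q_symm {Ω : Type*} [Fintype Ω] {R : Ω → Ω → Prop} (hR : Equivalence R)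
    (f g : Ω → ℝ) : dot (f - avg R f) g = dot f (g - avg R g) := by
  rw [dot_sub_left, dot_sub_right, avg_symm hR]

theorem dot_opA (f : Tab r c → ℝ) :
    dot f (opA r c f) = ∑ b ∈ pr ι, dot (f - avg (RR b) f) (f - avg (RR b) f)
        + ∑ b' ∈ pr κ, dot (f - avg (RC b') f) (f - avg (RC b') f) := by
  rw [opA_apply, dot_add_right, dot_sum_right, dot_sum_right]
  congr 1
  · exact Finset.sum_congr rfl fun b _ => (dot_Q_Q (RR_equiv b) f).symm
  · exact Finset.sum_congr rfl fun b _ => (dot_Q_Q (RC_equiv b) f).symm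

theorem opA_symm (f g : Tab r c → ℝ) : dot (opA r c f) g = dot f (opA r c g) := by
  rw [opA_apply, opA_apply, dot_add_left, dot_add_right, dot_sum_left, dot_sum_left,
    dot_sum_right, dot_sum_right]
  congr 1
  · exact Finset.sum_congr rfl fun b _ => dot_Q_symm (RR_equiv b) f g
  · exact Finset.sum_congr rfl fun b _ => dot_Q_symm (RC_equiv b) f g

theorem opA_sq {cst : ℝ} (hι : JS ι cst) (hκ : JS κ cst) (f : Tab r c → ℝ) :
    cst * dot f (opA r c f) ≤ dot (opA r c f) (opA r c f) := by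
  rw [dot_opA]
  refine (cross_sum hι hκ f).trans ?_
  rw [opA_apply]
  obtain ⟨u, hu⟩ : ∃ u, u = ∑ b ∈ pr ι, (f - avg (RR b) f) := ⟨_, rfl⟩
  obtain ⟨v, hv⟩ : ∃ v, v = ∑ b' ∈ pr κ, (f - avg (RC b') f) := ⟨_, rfl⟩
  have huv : ∑ b ∈ pr ι, ∑ b' ∈ pr κ, dot (f - avg (RR b) f) (f - avg (RC b') f) = dot u v := by
    rw [hu, hv, dot_sum_left]
    exact Finset.sum_congr rfl fun b _ => (dot_sum_right _ _ _).symm
  rw [huv, ← hu, ← hv, dot_add_left, dot_add_right, dot_add_right, dot_comm v u]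
  have := dot_self_nonneg u
  have := dot_self_nonneg v
  linarith

theorem opA_ker (k : Tab r c → ℝ) (hk : opA r c k = 0) (X Y : Tab r c) : k X = k Y := by
  have h0 : dot k (opA r c k) = 0 := by
    rw [hk]
    simp [dot]
  rw [dot_opA] at h0
  have n1 : 0 ≤ ∑ b' ∈ pr κ, dot (k - avg (RC b') k) (k - avg (RC b') k) :=
    Finset.sum_nonneg fun _ _ => dot_self_nonneg _
  have n2 : ∀ b ∈ pr ι, 0 ≤ dot (k - avg (RR b) k) (k - avg (RR b) k) :=
    fun _ _ => dot_self_nonneg _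
  have h1 : ∑ b ∈ pr ι, dot (k - avg (RR b) k) (k - avg (RR b) k) = 0 :=
    le_antisymm (by linarith) (Finset.sum_nonneg n2)
  refine const_of_inv k (fun b hb => ?_) X Y
  have h2 := (Finset.sum_eq_zero_iff_of_nonneg n2).1 h1 b hb
  have h3 := dot_self_eq_zero h2
  exact inv_of_avg_eq (RR_equiv b) (sub_eq_zero.1 h3).symm

/-- spectral gap of `A_R + A_C` -/
theorem gap_A {cst : ℝ} (hc : 0 < cst) (hι : JS ι cst) (hκ : JS κ cst) (f : Tab r c → ℝ)
    (hf : ∑ X, f X = 0) :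
    cst * dot f f ≤ ∑ b ∈ pr ι, dot (f - avg (RR b) f) (f - avg (RR b) f)
        + ∑ b' ∈ pr κ, dot (f - avg (RC b') f) (f - avg (RC b') f) := by
  rw [← dot_opA]
  refine gap_of_sq (opA r c) opA_symm (fun g => ?_) cst hc (opA_sq hι hκ) f (fun k hk => ?_)
  · rw [dot_opA]
    exact add_nonneg (Finset.sum_nonneg fun _ _ => dot_self_nonneg _)
      (Finset.sum_nonneg fun _ _ => dot_self_nonneg _)
  · rcases isEmpty_or_nonempty (Tab r c) with he | ⟨⟨X0⟩⟩
    · simp [dot]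
    · have : dot f k = (∑ X, f X) * k X0 := by
        unfold dot
        rw [Finset.sum_mul]
        exact Finset.sum_congr rfl fun X _ => by rw [opA_ker k hk X X0]
      rw [this, hf, zero_mul]

theorem jsTerm_zero {Ω : Type*} [Fintype Ω] (R rr : Ω → Ω → Prop) (f : Ω → ℝ) :
    jsTerm R rr f 0 = dot (f - avg rr f) (f - avg rr f) := by
  have hz : avg rr (0 : Ω → ℝ) = 0 := by
    have := avg_sub rr f f
    simpa using this
  unfold jsTerm
  rw [hz]
  simp [dot]

/-- Poincare inequality for the `2 × 2` heat bath -/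
theorem poincare {cst : ℝ} (hc : 0 < cst) (hι : JS ι cst) (hκ : JS κ cst) (f : Tab r c → ℝ)
    (hf : ∑ X, f X = 0) :
    cst ^ 2 * dot f f
      ≤ 2 * ∑ b ∈ pr ι, ∑ b' ∈ pr κ, dot (f - avg (RX b b') f) (f - avg (RX b b') f) := by
  have h0 := gap_A hc hι hκ f hf
  have h1 : ∑ b ∈ pr ι, cst * dot (f - avg (RR b) f) (f - avg (RR b) f)
      ≤ ∑ b ∈ pr ι, ∑ b' ∈ pr κ, dot (f - avg (RX b b') f) (f - avg (RX b b') f) := by
    refine Finset.sum_le_sum fun b hb => ?_
    have := js_row hκ b (ne_of_lt (mem_pr.1 hb)) f (fun _ => 0) (fun _ _ _ _ => rfl)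
    simpa only [jsTerm_zero] using this
  have h2 : ∑ b' ∈ pr κ, cst * dot (f - avg (RC b') f) (f - avg (RC b') f)
      ≤ ∑ b' ∈ pr κ, ∑ b ∈ pr ι, dot (f - avg (RX b b') f) (f - avg (RX b b') f) := by
    refine Finset.sum_le_sum fun b' hb' => ?_
    have := js_col hι b' (ne_of_lt (mem_pr.1 hb')) f (fun _ => 0) (fun _ _ _ _ => rfl)
    simpa only [jsTerm_zero] using this
  rw [Finset.sum_comm] at h2
  simp only [← Finset.mul_sum] at h1 h2
  have h3 := mul_le_mul_of_nonneg_left h0 hc.le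
  rw [mul_add] at h3
  calc cst ^ 2 * dot f f = cst * (cst * dot f f) := by ring
    _ ≤ _ := h3
    _ ≤ _ := by linarith

end P328RC
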