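import Vale.Agent.Lib.P328.RC.Defs

/-!
# P328, RC route: explicit description of one step of the `2 × 2` heat-bath chain

The tables which agree with `X` outside the block `b × b'` are exactly `X + k D`, `D = blk b b'` the
pattern `+1, -1, -1, +1` on the block, `k` an integer with
`- min (X₁₁, X₂₂) ≤ k ≤ min (X₁₂, X₂₁)`.
-/

namespace P328RC

open P335 Finset

variable {ι κ : Type*} [Fintype ι] [Fintype κ] [DecidableEq ι] [DecidableEq κ]

/-- the block pattern: `+1` at `(b.1, b'.1)`, `(b.2, b'.2)`, `-1` at `(b.1, b'.2)`, `(b.2, b'.1)`,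
`0` elsewhere -/
def blk (b : ι × ι) (b' : κ × κ) (i : ι) (j : κ) : ℤ :=
  (if (i = b.1 ∧ j = b'.1) ∨ (i = b.2 ∧ j = b'.2) then 1 else 0)
    - (if (i = b.1 ∧ j = b'.2) ∨ (i = b.2 ∧ j = b'.1) then 1 else 0)

omit [Fintype ι] [Fintype κ] in
theorem blk_11 {b : ι × ι} {b' : κ × κ} (hb : b.1 ≠ b.2) (hb' : b'.1 ≠ b'.2) :
    blk b b' b.1 b'.1 = 1 := by
  simp [blk, hb, hb']

omit [Fintype ι] [Fintype κ] in
theorem blk_12 {b : ι × ι} {b' : κ × κ} (hb : b.1 ≠ b.2) (hb' : b'.1 ≠ b'.2) :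
    blk b b' b.1 b'.2 = -1 := by
  simp [blk, hb, hb'.symm]

omit [Fintype ι] [Fintype κ] in
theorem blk_21 {b : ι × ι} {b' : κ × κ} (hb : b.1 ≠ b.2) (hb' : b'.1 ≠ b'.2) :
    blk b b' b.2 b'.1 = -1 := by
  simp [blk, hb.symm, hb']

omit [Fintype ι] [Fintype κ] in
theorem blk_22 {b : ι × ι} {b' : κ × κ} (hb : b.1 ≠ b.2) (hb' : b'.1 ≠ b'.2) :
    blk b b' b.2 b'.2 = 1 := by
  simp [blk, hb.symm, hb'.symm]

omit [Fintype ι] [Fintype κ] in
theorem blk_out {b : ι × ι} {b' : κ × κ} {i : ι} {j : κ}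
    (h : ¬((i = b.1 ∨ i = b.2) ∧ (j = b'.1 ∨ j = b'.2))) : blk b b' i j = 0 := by
  unfold blk
  rw [if_neg, if_neg, sub_self]
  · rintro (⟨h1, h2⟩ | ⟨h1, h2⟩)
    · exact h ⟨Or.inl h1, Or.inr h2⟩
    · exact h ⟨Or.inr h1, Or.inl h2⟩
  · rintro (⟨h1, h2⟩ | ⟨h1, h2⟩)
    · exact h ⟨Or.inl h1, Or.inl h2⟩
    · exact h ⟨Or.inr h1, Or.inr h2⟩

omit [Fintype ι] in
theorem sum_blk_row {b : ι × ι} {b' : κ × κ} (hb : b.1 ≠ b.2) (hb' : b'.1 ≠ b'.2) (i : ι) :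
    ∑ j, blk b b' i j = 0 := by
  rw [Finset.sum_eq_add b'.1 b'.2 hb'
    (fun j _ hj => blk_out (fun h => h.2.elim hj.1 hj.2))
    (fun h => absurd (mem_univ _) h) (fun h => absurd (mem_univ _) h)]
  by_cases h1 : i = b.1
  · subst h1; rw [blk_11 hb hb', blk_12 hb hb']; norm_num
  · by_cases h2 : i = b.2
    · subst h2; rw [blk_21 hb hb', blk_22 hb hb']; norm_num
    · rw [blk_out (fun h => h.1.elim h1 h2), blk_out (fun h => h.1.elim h1 h2)]; norm_num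

omit [Fintype κ] in
theorem sum_blk_col {b : ι × ι} {b' : κ × κ} (hb : b.1 ≠ b.2) (hb' : b'.1 ≠ b'.2) (j : κ) :
    ∑ i, blk b b' i j = 0 := by
  rw [Finset.sum_eq_add b.1 b.2 hb
    (fun i _ hi => blk_out (fun h => h.1.elim hi.1 hi.2))
    (fun h => absurd (mem_univ _) h) (fun h => absurd (mem_univ _) h)]
  by_cases h1 : j = b'.1
  · subst h1; rw [blk_11 hb hb', blk_21 hb hb']; norm_num
  · by_cases h2 : j = b'.2
    · subst h2; rw [blk_12 hb hb', blk_22 hb hb']; norm_num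
    · rw [blk_out (fun h => h.2.elim h1 h2), blk_out (fun h => h.2.elim h1 h2)]; norm_num

variable {r : ι → ℕ} {c : κ → ℕ}

/-- a table agreeing with `X` outside the block is `X + k D` -/
theorem exists_k_of_RX {b : ι × ι} {b' : κ × κ} (hb : b.1 ≠ b.2) (hb' : b'.1 ≠ b'.2)
    (X Y : Tab r c) (h : RX b b' X Y) :
    ∀ i j, (Y.1 i j : ℤ) = X.1 i j + ((Y.1 b.1 b'.1 : ℤ) - X.1 b.1 b'.1) * blk b b' i j := by
  set d : ι → κ → ℤ := fun i j => (Y.1 i j : ℤ) - X.1 i j with hd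
  have hout : ∀ i j, ¬((i = b.1 ∨ i = b.2) ∧ (j = b'.1 ∨ j = b'.2)) → d i j = 0 := by
    intro i j hij
    simp only [hd]
    rw [h i j hij, sub_self]
  have hrow : ∀ i, ∑ j, d i j = 0 := by
    intro i
    simp only [hd]
    rw [Finset.sum_sub_distrib]
    have h1 := Y.2.1 i
    have h2 := X.2.1 i
    have h1' : ∑ j, (Y.1 i j : ℤ) = r i := by exact_mod_cast h1
    have h2' : ∑ j, (X.1 i j : ℤ) = r i := by exact_mod_cast h2
    rw [h1', h2', sub_self]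
  have hcol : ∀ j, ∑ i, d i j = 0 := by
    intro j
    simp only [hd]
    rw [Finset.sum_sub_distrib]
    have h1 := Y.2.2 j
    have h2 := X.2.2 j
    have h1' : ∑ i, (Y.1 i j : ℤ) = c j := by exact_mod_cast h1
    have h2' : ∑ i, (X.1 i j : ℤ) = c j := by exact_mod_cast h2
    rw [h1', h2', sub_self]
  have r1 : d b.1 b'.1 + d b.1 b'.2 = 0 := by
    rw [← hrow b.1, Finset.sum_eq_add b'.1 b'.2 hb'
      (fun j _ hj => hout _ _ (fun h => h.2.elim hj.1 hj.2))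
      (fun h => absurd (mem_univ _) h) (fun h => absurd (mem_univ _) h)]
  have r2 : d b.2 b'.1 + d b.2 b'.2 = 0 := by
    rw [← hrow b.2, Finset.sum_eq_add b'.1 b'.2 hb'
      (fun j _ hj => hout _ _ (fun h => h.2.elim hj.1 hj.2))
      (fun h => absurd (mem_univ _) h) (fun h => absurd (mem_univ _) h)]
  have c1 : d b.1 b'.1 + d b.2 b'.1 = 0 := by
    rw [← hcol b'.1, Finset.sum_eq_add b.1 b.2 hb
      (fun i _ hi => hout _ _ (fun h => h.1.elim hi.1 hi.2))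
      (fun h => absurd (mem_univ _) h) (fun h => absurd (mem_univ _) h)]
  have key : ∀ i j, d i j = d b.1 b'.1 * blk b b' i j := by
    intro i j
    by_cases hin : (i = b.1 ∨ i = b.2) ∧ (j = b'.1 ∨ j = b'.2)
    · obtain ⟨hi | hi, hj | hj⟩ := hin <;> subst hi <;> subst hj
      · rw [blk_11 hb hb', mul_one]
      · rw [blk_12 hb hb']; linarith
      · rw [blk_21 hb hb']; linarith
      · rw [blk_22 hb hb']; linarith
    · rw [hout i j hin, blk_out hin, mul_zero]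
  intro i j
  have := key i j
  simp only [hd] at this
  linarith

/-- every admissible `k` gives a table -/
theorem exists_move {b : ι × ι} {b' : κ × κ} (hb : b.1 ≠ b.2) (hb' : b'.1 ≠ b'.2)
    (X : Tab r c) (k : ℤ) (h1 : -((min (X.1 b.1 b'.1) (X.1 b.2 b'.2) : ℕ) : ℤ) ≤ k)
    (h2 : k ≤ ((min (X.1 b.1 b'.2) (X.1 b.2 b'.1) : ℕ) : ℤ)) :
    ∃ Y : Tab r c, ∀ i j, (Y.1 i j : ℤ) = X.1 i j + k * blk b b' i j := by
  have a11 : -(X.1 b.1 b'.1 : ℤ) ≤ k := by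
    have : ((min (X.1 b.1 b'.1) (X.1 b.2 b'.2) : ℕ) : ℤ) ≤ X.1 b.1 b'.1 := by
      exact_mod_cast min_le_left _ _
    linarith
  have a22 : -(X.1 b.2 b'.2 : ℤ) ≤ k := by
    have : ((min (X.1 b.1 b'.1) (X.1 b.2 b'.2) : ℕ) : ℤ) ≤ X.1 b.2 b'.2 := by
      exact_mod_cast min_le_right _ _
    linarith
  have a12 : k ≤ (X.1 b.1 b'.2 : ℤ) := by
    have : ((min (X.1 b.1 b'.2) (X.1 b.2 b'.1) : ℕ) : ℤ) ≤ X.1 b.1 b'.2 := by
      exact_mod_cast min_le_left _ _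
    linarith
  have a21 : k ≤ (X.1 b.2 b'.1 : ℤ) := by
    have : ((min (X.1 b.1 b'.2) (X.1 b.2 b'.1) : ℕ) : ℤ) ≤ X.1 b.2 b'.1 := by
      exact_mod_cast min_le_right _ _
    linarith
  have hnn : ∀ i j, 0 ≤ (X.1 i j : ℤ) + k * blk b b' i j := by
    intro i j
    by_cases hin : (i = b.1 ∨ i = b.2) ∧ (j = b'.1 ∨ j = b'.2)
    · obtain ⟨hi | hi, hj | hj⟩ := hin <;> subst hi <;> subst hj
      · rw [blk_11 hb hb']; linarith
      · rw [blk_12 hb hb']; linarith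
      · rw [blk_21 hb hb']; linarith
      · rw [blk_22 hb hb']; linarith
    · rw [blk_out hin, mul_zero, add_zero]; exact Int.natCast_nonneg _
  have hcast : ∀ i j, ((((X.1 i j : ℤ) + k * blk b b' i j).toNat : ℕ) : ℤ)
      = X.1 i j + k * blk b b' i j := fun i j => Int.toNat_of_nonneg (hnn i j)
  refine ⟨⟨fun i j => ((X.1 i j : ℤ) + k * blk b b' i j).toNat, ?_, ?_⟩, hcast⟩
  · intro i
    have : ((∑ j, ((X.1 i j : ℤ) + k * blk b b' i j).toNat : ℕ) : ℤ) = r i := by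
      push_cast
      simp only [hcast]
      rw [Finset.sum_add_distrib, ← Finset.mul_sum, sum_blk_row hb hb', mul_zero, add_zero]
      exact_mod_cast X.2.1 i
    exact_mod_cast this
  · intro j
    have : ((∑ i, ((X.1 i j : ℤ) + k * blk b b' i j).toNat : ℕ) : ℤ) = c j := by
      push_cast
      simp only [hcast]
      rw [Finset.sum_add_distrib, ← Finset.mul_sum, sum_blk_col hb hb', mul_zero, add_zero]
      exact_mod_cast X.2.2 j
    exact_mod_cast this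

/-- the tables agreeing with `X` outside the block are exactly the `X + k D` with
`- min (X₁₁, X₂₂) ≤ k ≤ min (X₁₂, X₂₁)` -/
theorem RX_iff {b : ι × ι} {b' : κ × κ} (hb : b.1 ≠ b.2) (hb' : b'.1 ≠ b'.2) (X Y : Tab r c) :
    RX b b' X Y ↔ ∃ k : ℤ, -((min (X.1 b.1 b'.1) (X.1 b.2 b'.2) : ℕ) : ℤ) ≤ k ∧
      k ≤ ((min (X.1 b.1 b'.2) (X.1 b.2 b'.1) : ℕ) : ℤ) ∧
      ∀ i j, (Y.1 i j : ℤ) = X.1 i j + k * blk b b' i j := by
  constructor
  · intro h
    have hk := exists_k_of_RX hb hb' X Y h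
    refine ⟨_, ?_, ?_, hk⟩
    · have e22 := hk b.2 b'.2
      rw [blk_22 hb hb', mul_one] at e22
      have n22 : (0 : ℤ) ≤ Y.1 b.2 b'.2 := Int.natCast_nonneg _
      have n11 : (0 : ℤ) ≤ Y.1 b.1 b'.1 := Int.natCast_nonneg _
      rcases min_choice (X.1 b.1 b'.1) (X.1 b.2 b'.2) with hm | hm <;> rw [hm] <;> linarith
    · have e12 := hk b.1 b'.2
      rw [blk_12 hb hb'] at e12
      have e21 := hk b.2 b'.1
      rw [blk_21 hb hb'] at e21
      have n12 : (0 : ℤ) ≤ Y.1 b.1 b'.2 := Int.natCast_nonneg _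
      have n21 : (0 : ℤ) ≤ Y.1 b.2 b'.1 := Int.natCast_nonneg _
      rcases min_choice (X.1 b.1 b'.2) (X.1 b.2 b'.1) with hm | hm <;> rw [hm] <;> linarith
  · rintro ⟨k, _, _, hk⟩ i j hij
    have := hk i j
    rw [blk_out hij, mul_zero, add_zero] at this
    exact_mod_cast this.symm

/-- the number of tables agreeing with `X` outside the block -/
theorem card_cls_RX {b : ι × ι} {b' : κ × κ} (hb : b.1 ≠ b.2) (hb' : b'.1 ≠ b'.2) (X : Tab r c) :
    (cls (RX b b') X).card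
      = min (X.1 b.1 b'.1) (X.1 b.2 b'.2) + min (X.1 b.1 b'.2) (X.1 b.2 b'.1) + 1 := by
  set lo : ℤ := -((min (X.1 b.1 b'.1) (X.1 b.2 b'.2) : ℕ) : ℤ) with hlo
  set hi : ℤ := ((min (X.1 b.1 b'.2) (X.1 b.2 b'.1) : ℕ) : ℤ) with hhi
  have hcard : (cls (RX b b') X).card = (Finset.Icc lo hi).card := by
    refine Finset.card_bij (fun Y _ => (Y.1 b.1 b'.1 : ℤ) - X.1 b.1 b'.1) ?_ ?_ ?_
    · intro Y hY
      obtain ⟨k, h1, h2, hk⟩ := (RX_iff hb hb' X Y).1 (mem_cls.1 hY)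
      have e := hk b.1 b'.1
      rw [blk_11 hb hb', mul_one] at e
      rw [Finset.mem_Icc]
      constructor <;> linarith
    · intro Y hY Z hZ hYZ
      have eY := exists_k_of_RX hb hb' X Y (mem_cls.1 hY)
      have eZ := exists_k_of_RX hb hb' X Z (mem_cls.1 hZ)
      apply Tab.ext
      intro i j
      have : (Y.1 i j : ℤ) = Z.1 i j := by
        rw [eY i j, eZ i j]
        have hYZ' : (Y.1 b.1 b'.1 : ℤ) - X.1 b.1 b'.1 = (Z.1 b.1 b'.1 : ℤ) - X.1 b.1 b'.1 := hYZ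
        rw [hYZ']
      exact_mod_cast this
    · intro k hk
      rw [Finset.mem_Icc] at hk
      obtain ⟨Y, hY⟩ := exists_move hb hb' X k hk.1 hk.2
      refine ⟨Y, mem_cls.2 ((RX_iff hb hb' X Y).2 ⟨k, hk.1, hk.2, hY⟩), ?_⟩
      have e := hY b.1 b'.1
      rw [blk_11 hb hb', mul_one] at e
      linarith
  rw [hcard, Int.card_Icc, hlo, hhi]
  omega

end P328RC
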